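import Mathlib

/-!
# Elementary estimates for the Coulomb kernel
-/

open scoped RealInnerProductSpace

namespace Vale.Agent.P121

variable {E : Type*} [NormedAddCommGroup E] [InnerProductSpace ℝ E]

/-- The gradient of `v ↦ 1 / ‖v‖`. -/
noncomputable def kf (v : E) : E := -((‖v‖ ^ 3)⁻¹ • v)

/-- The inverse of `kf`. -/
noncomputable def Jf (w : E) : E := -((‖w‖ * Real.sqrt ‖w‖)⁻¹ • w)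

lemma kf_neg (v : E) : kf (-v) = - kf v := by
  simp [kf]

lemma kf_sub_comm (v w : E) : kf (v - w) = - kf (w - v) := by
  rw [← kf_neg, neg_sub]

lemma norm_kf (v : E) (hv : v ≠ 0) : ‖kf v‖ = (‖v‖ ^ 2)⁻¹ := by
  have h : 0 < ‖v‖ := norm_pos_iff.mpr hv
  rw [kf, norm_neg, norm_smul, norm_inv, norm_pow, norm_norm]
  field_simp

lemma kf_Jf (w : E) (hw : w ≠ 0) : kf (Jf w) = w := by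
  have h : 0 < ‖w‖ := norm_pos_iff.mpr hw
  have hs : 0 < Real.sqrt ‖w‖ := Real.sqrt_pos.mpr h
  have hsq : Real.sqrt ‖w‖ * Real.sqrt ‖w‖ = ‖w‖ := Real.mul_self_sqrt h.le
  have hn : ‖Jf w‖ = (Real.sqrt ‖w‖)⁻¹ := by
    rw [Jf, norm_neg, norm_smul, norm_inv, norm_mul, norm_norm, Real.norm_of_nonneg hs.le]
    field_simp
  rw [kf, hn, Jf, smul_neg, neg_neg, smul_smul]
  have : (((Real.sqrt ‖w‖)⁻¹ ^ 3)⁻¹ * (‖w‖ * Real.sqrt ‖w‖)⁻¹) = 1 := by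
    set s := Real.sqrt ‖w‖ with hsdef
    rw [← hsq]
    field_simp
  rw [this, one_smul]

lemma Jf_kf (v : E) (hv : v ≠ 0) : Jf (kf v) = v := by
  have h : 0 < ‖v‖ := norm_pos_iff.mpr hv
  rw [Jf, norm_kf v hv]
  have hs : Real.sqrt ((‖v‖ ^ 2)⁻¹) = ‖v‖⁻¹ := by
    rw [← inv_pow, Real.sqrt_sq (inv_nonneg.mpr h.le)]
  rw [hs, kf, smul_neg, neg_neg, smul_smul]
  have : ((‖v‖ ^ 2)⁻¹ * ‖v‖⁻¹)⁻¹ * (‖v‖ ^ 3)⁻¹ = 1 := by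
    field_simp
  rw [this, one_smul]

/-- Tangent lower bound for the Coulomb kernel. -/
lemma inv_norm_lower (v v₀ : E) (hv : v ≠ 0) (hv₀ : v₀ ≠ 0) :
    ‖v₀‖⁻¹ + ⟪kf v₀, v - v₀⟫ - (‖v₀‖ ^ 3)⁻¹ / 2 * ‖v - v₀‖ ^ 2 ≤ ‖v‖⁻¹ := by
  have ha : 0 < ‖v₀‖ := norm_pos_iff.mpr hv₀
  have hb : 0 < ‖v‖ := norm_pos_iff.mpr hv
  have h1 : ‖v‖ ^ 2 = ‖v₀‖ ^ 2 + 2 * ⟪v₀, v - v₀⟫ + ‖v - v₀‖ ^ 2 := by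
    have := norm_add_sq_real v₀ (v - v₀)
    rwa [add_sub_cancel] at this
  have h2 : ⟪kf v₀, v - v₀⟫ = -((‖v₀‖ ^ 3)⁻¹ * ⟪v₀, v - v₀⟫) := by
    rw [kf, inner_neg_left, real_inner_smul_left]
  rw [h2]
  have h3 : ‖v₀‖⁻¹ + -((‖v₀‖ ^ 3)⁻¹ * ⟪v₀, v - v₀⟫) - (‖v₀‖ ^ 3)⁻¹ / 2 * ‖v - v₀‖ ^ 2
      = ‖v₀‖⁻¹ - (‖v₀‖ ^ 3)⁻¹ / 2 * (‖v‖ ^ 2 - ‖v₀‖ ^ 2) := by
    rw [h1]; ring
  rw [h3]
  set a := ‖v₀‖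
  set b := ‖v‖
  have h4 : b⁻¹ - (a⁻¹ - (a ^ 3)⁻¹ / 2 * (b ^ 2 - a ^ 2))
      = (a - b) ^ 2 * (2 * a + b) / (2 * a ^ 3 * b) := by
    field_simp
    ring
  have h5 : 0 ≤ (a - b) ^ 2 * (2 * a + b) / (2 * a ^ 3 * b) := by positivity
  linarith

/-- The inversion is Lipschitz away from `0`. -/
lemma norm_inv_sub_le (v w : E) (hv : v ≠ 0) (hw : w ≠ 0) :
    ‖(‖v‖ ^ 2)⁻¹ • v - (‖w‖ ^ 2)⁻¹ • w‖ = ‖v - w‖ / (‖v‖ * ‖w‖) := by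
  have ha : 0 < ‖v‖ := norm_pos_iff.mpr hv
  have hb : 0 < ‖w‖ := norm_pos_iff.mpr hw
  have h0 : 0 ≤ ‖v - w‖ / (‖v‖ * ‖w‖) := by positivity
  rw [← sq_eq_sq₀ (norm_nonneg _) h0]
  rw [norm_sub_sq_real, norm_smul, norm_smul, real_inner_smul_left, real_inner_smul_right,
    div_pow, norm_sub_sq_real, norm_inv, norm_inv, norm_pow, norm_pow, norm_norm, norm_norm]
  field_simp
  ring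

lemma kf_sub_le (v w : E) {m : ℝ} (hm : 0 < m) (hv : m ≤ ‖v‖) (hw : m ≤ ‖w‖) :
    ‖kf v - kf w‖ ≤ 2 / m ^ 3 * ‖v - w‖ := by
  have ha : 0 < ‖v‖ := hm.trans_le hv
  have hb : 0 < ‖w‖ := hm.trans_le hw
  have hv0 : v ≠ 0 := norm_pos_iff.mp ha
  have hw0 : w ≠ 0 := norm_pos_iff.mp hb
  have h1 : kf v - kf w = -(‖v‖⁻¹ • ((‖v‖ ^ 2)⁻¹ • v - (‖w‖ ^ 2)⁻¹ • w))
      - (‖v‖⁻¹ - ‖w‖⁻¹) • ((‖w‖ ^ 2)⁻¹ • w) := by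
    rw [kf, kf, smul_sub, sub_smul, smul_smul, smul_smul, smul_smul]
    have e1 : ‖v‖⁻¹ * (‖v‖ ^ 2)⁻¹ = (‖v‖ ^ 3)⁻¹ := by field_simp
    have e2 : ‖w‖⁻¹ * (‖w‖ ^ 2)⁻¹ = (‖w‖ ^ 3)⁻¹ := by field_simp
    rw [e1, e2]
    abel
  have h2 : ‖‖v‖⁻¹ • ((‖v‖ ^ 2)⁻¹ • v - (‖w‖ ^ 2)⁻¹ • w)‖ = ‖v - w‖ / (‖v‖ ^ 2 * ‖w‖) := by
    rw [norm_smul, norm_inv_sub_le v w hv0 hw0, norm_inv, norm_norm]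
    field_simp
  have h3 : |‖v‖⁻¹ - ‖w‖⁻¹| ≤ ‖v - w‖ / (‖v‖ * ‖w‖) := by
    have : ‖v‖⁻¹ - ‖w‖⁻¹ = (‖w‖ - ‖v‖) / (‖v‖ * ‖w‖) := by
      field_simp
    rw [this, abs_div, abs_of_pos (mul_pos ha hb)]
    gcongr
    rw [abs_sub_comm]
    exact abs_norm_sub_norm_le v w
  have h4 : ‖(‖w‖ ^ 2)⁻¹ • w‖ = ‖w‖⁻¹ := by
    rw [norm_smul, norm_inv, norm_pow, norm_norm]; field_simp
  have h5 : ‖(‖v‖⁻¹ - ‖w‖⁻¹) • ((‖w‖ ^ 2)⁻¹ • w)‖ ≤ ‖v - w‖ / (‖v‖ * ‖w‖ ^ 2) := by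
    rw [norm_smul, h4, Real.norm_eq_abs]
    calc |‖v‖⁻¹ - ‖w‖⁻¹| * ‖w‖⁻¹ ≤ ‖v - w‖ / (‖v‖ * ‖w‖) * ‖w‖⁻¹ := by gcongr
      _ = ‖v - w‖ / (‖v‖ * ‖w‖ ^ 2) := by field_simp
  have h6 : ‖v - w‖ / (‖v‖ ^ 2 * ‖w‖) ≤ ‖v - w‖ / m ^ 3 := by
    gcongr
    calc m ^ 3 = m ^ 2 * m := by ring
      _ ≤ ‖v‖ ^ 2 * ‖w‖ := by gcongr
  have h7 : ‖v - w‖ / (‖v‖ * ‖w‖ ^ 2) ≤ ‖v - w‖ / m ^ 3 := by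
    gcongr
    calc m ^ 3 = m * m ^ 2 := by ring
      _ ≤ ‖v‖ * ‖w‖ ^ 2 := by gcongr
  rw [h1]
  calc ‖-(‖v‖⁻¹ • ((‖v‖ ^ 2)⁻¹ • v - (‖w‖ ^ 2)⁻¹ • w))
      - (‖v‖⁻¹ - ‖w‖⁻¹) • ((‖w‖ ^ 2)⁻¹ • w)‖
      ≤ ‖-(‖v‖⁻¹ • ((‖v‖ ^ 2)⁻¹ • v - (‖w‖ ^ 2)⁻¹ • w))‖
        + ‖(‖v‖⁻¹ - ‖w‖⁻¹) • ((‖w‖ ^ 2)⁻¹ • w)‖ := norm_sub_le _ _
    _ ≤ ‖v - w‖ / m ^ 3 + ‖v - w‖ / m ^ 3 := by
        rw [norm_neg, h2]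
        exact add_le_add h6 (h5.trans h7)
    _ = 2 / m ^ 3 * ‖v - w‖ := by ring

lemma Jf_sub_le (v w : E) {m : ℝ} (hm : 0 < m) (hv : m ^ 2 ≤ ‖v‖) (hw : m ^ 2 ≤ ‖w‖) :
    ‖Jf v - Jf w‖ ≤ 3 / (2 * m ^ 3) * ‖v - w‖ := by
  have hm2 : 0 < m ^ 2 := by positivity
  have ha : 0 < ‖v‖ := hm2.trans_le hv
  have hb : 0 < ‖w‖ := hm2.trans_le hw
  have hv0 : v ≠ 0 := norm_pos_iff.mp ha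
  have hw0 : w ≠ 0 := norm_pos_iff.mp hb
  obtain ⟨p, hp, hpv⟩ : ∃ p, m ≤ p ∧ ‖v‖ = p ^ 2 :=
    ⟨Real.sqrt ‖v‖, Real.le_sqrt_of_sq_le hv, (Real.sq_sqrt ha.le).symm⟩
  obtain ⟨q, hq, hqw⟩ : ∃ q, m ≤ q ∧ ‖w‖ = q ^ 2 :=
    ⟨Real.sqrt ‖w‖, Real.le_sqrt_of_sq_le hw, (Real.sq_sqrt hb.le).symm⟩
  have hp0 : 0 < p := hm.trans_le hp
  have hq0 : 0 < q := hm.trans_le hq
  have hsp : Real.sqrt ‖v‖ = p := by rw [hpv]; exact Real.sqrt_sq hp0.le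
  have hsq : Real.sqrt ‖w‖ = q := by rw [hqw]; exact Real.sqrt_sq hq0.le
  have h1 : Jf v - Jf w = -(p • ((‖v‖ ^ 2)⁻¹ • v - (‖w‖ ^ 2)⁻¹ • w))
      - (p - q) • ((‖w‖ ^ 2)⁻¹ • w) := by
    rw [Jf, Jf, smul_sub, sub_smul, smul_smul, smul_smul, smul_smul, hsp, hsq]
    have e1 : p * (‖v‖ ^ 2)⁻¹ = (‖v‖ * p)⁻¹ := by rw [hpv]; field_simp
    have e2 : q * (‖w‖ ^ 2)⁻¹ = (‖w‖ * q)⁻¹ := by rw [hqw]; field_simp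
    rw [e1, e2]
    abel
  have h2 : ‖p • ((‖v‖ ^ 2)⁻¹ • v - (‖w‖ ^ 2)⁻¹ • w)‖ = ‖v - w‖ / (p * q ^ 2) := by
    rw [norm_smul, norm_inv_sub_le v w hv0 hw0, Real.norm_of_nonneg hp0.le, hpv, hqw]
    field_simp
  have h3 : |p - q| ≤ ‖v - w‖ / (p + q) := by
    rw [le_div_iff₀ (by positivity)]
    have : |p - q| * (p + q) = |‖v‖ - ‖w‖| := by
      have e : ‖v‖ - ‖w‖ = (p - q) * (p + q) := by rw [hpv, hqw]; ring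
      rw [e, abs_mul, abs_of_pos (show 0 < p + q by positivity)]
    rw [this]
    exact abs_norm_sub_norm_le v w
  have h4 : ‖(‖w‖ ^ 2)⁻¹ • w‖ = (q ^ 2)⁻¹ := by
    rw [norm_smul, norm_inv, norm_pow, norm_norm, hqw]; field_simp
  have h5 : ‖(p - q) • ((‖w‖ ^ 2)⁻¹ • w)‖ ≤ ‖v - w‖ / ((p + q) * q ^ 2) := by
    rw [norm_smul, h4, Real.norm_eq_abs]
    calc |p - q| * (q ^ 2)⁻¹ ≤ ‖v - w‖ / (p + q) * (q ^ 2)⁻¹ := by gcongr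
      _ = ‖v - w‖ / ((p + q) * q ^ 2) := by field_simp
  have h6 : ‖v - w‖ / (p * q ^ 2) ≤ ‖v - w‖ / m ^ 3 := by
    gcongr
    calc m ^ 3 = m * m ^ 2 := by ring
      _ ≤ p * q ^ 2 := by gcongr
  have h7 : ‖v - w‖ / ((p + q) * q ^ 2) ≤ ‖v - w‖ / (2 * m ^ 3) := by
    have h8 : 2 * m ^ 3 ≤ (p + q) * q ^ 2 := by
      calc 2 * m ^ 3 = (m + m) * m ^ 2 := by ring
        _ ≤ (p + q) * q ^ 2 := by gcongr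
    exact div_le_div_of_nonneg_left (norm_nonneg _) (by positivity) h8
  rw [h1]
  calc ‖-(p • ((‖v‖ ^ 2)⁻¹ • v - (‖w‖ ^ 2)⁻¹ • w)) - (p - q) • ((‖w‖ ^ 2)⁻¹ • w)‖
      ≤ ‖-(p • ((‖v‖ ^ 2)⁻¹ • v - (‖w‖ ^ 2)⁻¹ • w))‖
        + ‖(p - q) • ((‖w‖ ^ 2)⁻¹ • w)‖ := norm_sub_le _ _
    _ ≤ ‖v - w‖ / m ^ 3 + ‖v - w‖ / (2 * m ^ 3) := by
        rw [norm_neg, h2]
        exact add_le_add h6 (h5.trans h7)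
    _ = 3 / (2 * m ^ 3) * ‖v - w‖ := by field_simp; ring

end Vale.Agent.P121
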