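import Mathlib

/-!
# Multi-marginal Coulomb transport: definitions
-/

open scoped ENNReal
open MeasureTheory

namespace Vale.Agent.P121

/-- The three-particle Coulomb cost, with value `∞` when two of the points coincide. -/
noncomputable def coulombCost {E : Type*} [NormedAddCommGroup E] (x y z : E) : ℝ≥0∞ :=
  (edist x y)⁻¹ + (edist x z)⁻¹ + (edist y z)⁻¹

/-- `π` is a coupling of three copies of `μ`. -/
def IsCoupling {E : Type*} [MeasurableSpace E] (μ : Measure E) (π : Measure (E × E × E)) : Prop :=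
  π.map (fun p => p.1) = μ ∧ π.map (fun p => p.2.1) = μ ∧ π.map (fun p => p.2.2) = μ

/-- The total Coulomb cost of a plan. -/
noncomputable def planCost {E : Type*} [NormedAddCommGroup E] [MeasurableSpace E]
    (π : Measure (E × E × E)) : ℝ≥0∞ :=
  ∫⁻ p, coulombCost p.1 p.2.1 p.2.2 ∂π

/-- The Kantorovich value: the infimum of the cost over all couplings of three copies of `μ`. -/
noncomputable def kantorovichValue {E : Type*} [NormedAddCommGroup E] [MeasurableSpace E]
    (μ : Measure E) : ℝ≥0∞ :=
  ⨅ (π : Measure (E × E × E)) (_ : IsCoupling μ π), planCost π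

/-- The pair `(T₂, T₃)` defines the Monge plan `(Id, T₂, T₃)_# μ`. -/
def IsMongePair {E : Type*} [MeasurableSpace E] (μ : Measure E) (T₂ T₃ : E → E) : Prop :=
  Measurable T₂ ∧ Measurable T₃ ∧ μ.map T₂ = μ ∧ μ.map T₃ = μ

/-- The cost of the Monge plan given by `(T₂, T₃)`. -/
noncomputable def mongeCost {E : Type*} [NormedAddCommGroup E] [MeasurableSpace E]
    (μ : Measure E) (T₂ T₃ : E → E) : ℝ≥0∞ :=
  ∫⁻ x, coulombCost x (T₂ x) (T₃ x) ∂μ

end Vale.Agent.P121
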