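import Vale.Agent.P121.Opt
import Vale.Agent.P121.Defs

/-!
# The configuration and the pointwise duality inequality
-/

open scoped RealInnerProductSpace ENNReal
open Metric Set

namespace Vale.Agent.P121

set_option linter.unusedSectionVars false

variable {E : Type*} [NormedAddCommGroup E] [InnerProductSpace ℝ E]

lemma coulombCost_swap12 (x y z : E) : coulombCost y x z = coulombCost x y z := by
  simp only [coulombCost, edist_comm y x]
  rw [add_right_comm]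

lemma coulombCost_swap23 (x y z : E) : coulombCost x z y = coulombCost x y z := by
  simp only [coulombCost, edist_comm z y]
  rw [add_comm (edist x z)⁻¹]

lemma coulombCost_eq {x y z : E} (hxy : x ≠ y) (hxz : x ≠ z) (hyz : y ≠ z) :
    coulombCost x y z = ENNReal.ofReal (cr x y z) := by
  have key : ∀ {a b : E}, a ≠ b → (edist a b)⁻¹ = ENNReal.ofReal (‖a - b‖⁻¹) := by
    intro a b hab
    have h : 0 < ‖a - b‖ := norm_pos_iff.mpr (sub_ne_zero.mpr hab)
    rw [edist_dist, dist_eq_norm, ENNReal.ofReal_inv_of_pos h]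
  rw [coulombCost, key hxy, key hxz, key hyz, cr, ENNReal.ofReal_add (by positivity) (by positivity),
    ENNReal.ofReal_add (by positivity) (by positivity)]

lemma coulombCost_of_eq {x y z : E} (h : x = y ∨ x = z ∨ y = z) : coulombCost x y z = ⊤ := by
  rcases h with h | h | h <;> simp [coulombCost, h]

/-- The hub. -/
def hub (E : Type*) [NormedAddCommGroup E] : Set E := closedBall (0 : E) (1 / 100000000)

lemma mem_hub {x : E} : x ∈ hub E ↔ ‖x‖ ≤ 1 / 100000000 := by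
  rw [hub, mem_closedBall, dist_zero_right]

/-- The data of the configuration. -/
structure Config (E : Type*) [NormedAddCommGroup E] [InnerProductSpace ℝ E] where
  e : E
  g : E ≃ₗᵢ[ℝ] E
  F : E → E
  G : E → E
  he : ‖e‖ = 1
  hgg : ∀ x, g (g x) = x
  hge : ⟪e, g e⟫ = 0
  crit : ∀ x ∈ hub E, Crit e x (F x) (G x)

namespace Config

variable (C : Config E)

/-- The support of the measure. -/
def K : Set E := {x | x ∈ hub E ∨ (∃ b ∈ hub E, x = C.F b) ∨ (∃ b ∈ hub E, x = C.G b) ∨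
  (∃ b ∈ hub E, x = C.g (C.F b)) ∨ (∃ b ∈ hub E, x = C.g (C.G b))}

/-- A potential for the configuration. -/
structure IsPot (u : E → ℝ) : Prop where
  hH : ∀ b ∈ hub E, u b = Uh b
  hF : ∀ b ∈ hub E, u (C.F b) = Us C.e (C.F b)
  hG : ∀ b ∈ hub E, u (C.G b) = Ut C.e b (C.F b) (C.G b)
  hgF : ∀ b ∈ hub E, u (C.g (C.F b)) = Us C.e (C.F b)
  hgG : ∀ b ∈ hub E, u (C.g (C.G b)) = Ut C.e b (C.F b) (C.G b)

/-- Triples on the sheet through `b`, `f`, `h` up to permutation. -/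
def Perm3 (b f h x y z : E) : Prop :=
  (x = b ∧ y = f ∧ z = h) ∨ (x = b ∧ y = h ∧ z = f) ∨ (x = f ∧ y = b ∧ z = h) ∨
  (x = h ∧ y = b ∧ z = f) ∨ (x = f ∧ y = h ∧ z = b) ∨ (x = h ∧ y = f ∧ z = b)

lemma Perm3.swap12 {b f h x y z : E} (H : Perm3 b f h x y z) : Perm3 b f h y x z := by
  unfold Perm3 at *; tauto

lemma Perm3.swap23 {b f h x y z : E} (H : Perm3 b f h x y z) : Perm3 b f h x z y := by
  unfold Perm3 at *; tauto

lemma Perm3.map {b f h x y z : E} (φ : E → E) (H : Perm3 b f h x y z) :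
    Perm3 (φ b) (φ f) (φ h) (φ x) (φ y) (φ z) := by
  rcases H with ⟨rfl, rfl, rfl⟩ | ⟨rfl, rfl, rfl⟩ | ⟨rfl, rfl, rfl⟩ | ⟨rfl, rfl, rfl⟩ |
    ⟨rfl, rfl, rfl⟩ | ⟨rfl, rfl, rfl⟩
  · exact Or.inl ⟨rfl, rfl, rfl⟩
  · exact Or.inr (Or.inl ⟨rfl, rfl, rfl⟩)
  · exact Or.inr (Or.inr (Or.inl ⟨rfl, rfl, rfl⟩))
  · exact Or.inr (Or.inr (Or.inr (Or.inl ⟨rfl, rfl, rfl⟩)))
  · exact Or.inr (Or.inr (Or.inr (Or.inr (Or.inl ⟨rfl, rfl, rfl⟩))))
  · exact Or.inr (Or.inr (Or.inr (Or.inr (Or.inr ⟨rfl, rfl, rfl⟩))))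

/-- The conclusion of the pointwise duality. -/
def Q (u : E → ℝ) (x y z : E) : Prop :=
  (ENNReal.ofReal (u x) + ENNReal.ofReal (u y) + ENNReal.ofReal (u z) < coulombCost x y z) ∨
  (ENNReal.ofReal (u x) + ENNReal.ofReal (u y) + ENNReal.ofReal (u z) = coulombCost x y z ∧
    ∃ b ∈ hub E, Perm3 b (C.F b) (C.G b) x y z ∨ Perm3 b (C.g (C.F (C.g b))) (C.g (C.G (C.g b))) x y z)

variable {C}
variable {u : E → ℝ}

lemma Q.swap12 {x y z : E} (H : C.Q u x y z) : C.Q u y x z := by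
  unfold Q at *
  rw [coulombCost_swap12, add_comm (ENNReal.ofReal (u y))]
  rcases H with H | ⟨H, b, hb, H'⟩
  · exact Or.inl H
  · exact Or.inr ⟨H, b, hb, H'.imp Perm3.swap12 Perm3.swap12⟩

lemma Q.swap23 {x y z : E} (H : C.Q u x y z) : C.Q u x z y := by
  unfold Q at *
  rw [coulombCost_swap23, add_right_comm]
  rcases H with H | ⟨H, b, hb, H'⟩
  · exact Or.inl H
  · exact Or.inr ⟨H, b, hb, H'.imp Perm3.swap23 Perm3.swap23⟩

/-- Type of a satellite point: near `p` with `p ∈ {±e, ±ge}`. -/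
lemma norm_sat {x : E} (hx : x ∈ C.K) (hx' : x ∉ hub E) : ‖x‖ ≤ 401 / 400 := by
  have key : ∀ b ∈ hub E, ‖C.F b‖ ≤ 401 / 400 ∧ ‖C.G b‖ ≤ 401 / 400 := by
    intro b hb
    have h := C.crit b hb
    constructor
    · have := norm_sub_norm_le (C.F b) C.e
      rw [C.he] at this
      linarith [h.hy]
    · have := norm_sub_norm_le (C.G b) (-C.e)
      rw [norm_neg, C.he, sub_neg_eq_add] at this
      linarith [h.hz]
  rcases hx with h | ⟨b, hb, rfl⟩ | ⟨b, hb, rfl⟩ | ⟨b, hb, rfl⟩ | ⟨b, hb, rfl⟩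
  · exact absurd h hx'
  · exact (key b hb).1
  · exact (key b hb).2
  · rw [C.g.norm_map]; exact (key b hb).1
  · rw [C.g.norm_map]; exact (key b hb).2

lemma Us_bounds {e b y z : E} (h : Crit e b y z) : 48 / 100 ≤ Us e y ∧ Us e y ≤ 52 / 100 := by
  have c2 : 0 ≤ ‖y - e‖ ^ 2 := by positivity
  have d2 : ‖y - e‖ ^ 2 ≤ (1 / 3000) ^ 2 := by gcongr; exact h.hy
  rw [Us]
  constructor <;> linarith

lemma Uh_bounds {x : E} (h : x ∈ hub E) : 1 ≤ Uh x ∧ Uh x ≤ 3 / 2 := by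
  rw [mem_hub] at h
  have c2 : 0 ≤ ‖x‖ ^ 2 := by positivity
  have d2 : ‖x‖ ^ 2 ≤ (1 / 100000000) ^ 2 := by gcongr
  rw [Uh]
  constructor <;> linarith

lemma IsPot.sat (hu : C.IsPot u) {x : E} (hx : x ∈ C.K) (hx' : x ∉ hub E) :
    48 / 100 ≤ u x ∧ u x ≤ 52 / 100 := by
  rcases hx with h | ⟨b, hb, rfl⟩ | ⟨b, hb, rfl⟩ | ⟨b, hb, rfl⟩ | ⟨b, hb, rfl⟩
  · exact absurd h hx'
  · rw [hu.hF b hb]; exact Us_bounds (C.crit b hb)
  · rw [hu.hG b hb]; exact (C.crit b hb).Ut_bounds C.he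
  · rw [hu.hgF b hb]; exact Us_bounds (C.crit b hb)
  · rw [hu.hgG b hb]; exact (C.crit b hb).Ut_bounds C.he

lemma IsPot.bounds (hu : C.IsPot u) {x : E} (hx : x ∈ C.K) : 48 / 100 ≤ u x ∧ u x ≤ 3 / 2 := by
  by_cases h : x ∈ hub E
  · rw [hu.hH x h]
    have := Uh_bounds h
    constructor <;> linarith
  · have := hu.sat hx h
    constructor <;> linarith

/-- Passing to real numbers. -/
lemma lt_of_real {x y z : E} (hu : C.IsPot u) (hx : x ∈ C.K) (hy : y ∈ C.K) (hz : z ∈ C.K)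
    (H : x ≠ y → x ≠ z → y ≠ z → u x + u y + u z < cr x y z) :
    ENNReal.ofReal (u x) + ENNReal.ofReal (u y) + ENNReal.ofReal (u z) < coulombCost x y z := by
  have bx := hu.bounds hx
  have by' := hu.bounds hy
  have bz := hu.bounds hz
  rw [← ENNReal.ofReal_add (by linarith) (by linarith),
    ← ENNReal.ofReal_add (by linarith) (by linarith)]
  by_cases h1 : x = y
  · rw [coulombCost_of_eq (Or.inl h1)]; exact ENNReal.ofReal_lt_top
  by_cases h2 : x = z
  · rw [coulombCost_of_eq (Or.inr (Or.inl h2))]; exact ENNReal.ofReal_lt_top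
  by_cases h3 : y = z
  · rw [coulombCost_of_eq (Or.inr (Or.inr h3))]; exact ENNReal.ofReal_lt_top
  rw [coulombCost_eq h1 h2 h3]
  have := H h1 h2 h3
  exact (ENNReal.ofReal_lt_ofReal_iff (by linarith)).mpr this

lemma two_hubs (hu : C.IsPot u) {x y z : E} (hx : x ∈ hub E) (hy : y ∈ hub E) (hz : z ∈ C.K) :
    C.Q u x y z := by
  refine Or.inl (lt_of_real hu (Or.inl hx) (Or.inl hy) hz ?_)
  intro hxy hxz hyz
  have bx := (hu.bounds (Or.inl hx : x ∈ C.K)).2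
  have by' := (hu.bounds (Or.inl hy : y ∈ C.K)).2
  have bz := (hu.bounds hz).2
  have h1 : ‖x - y‖ ≤ 2 / 100000000 := by
    have := norm_sub_le x y
    rw [mem_hub] at hx hy
    linarith
  have h2 : 100 ≤ ‖x - y‖⁻¹ := by
    rw [le_inv_comm₀ (by norm_num) (norm_pos_iff.mpr (sub_ne_zero.mpr hxy))]
    exact h1.trans (by norm_num)
  have h3 : 0 ≤ ‖x - z‖⁻¹ := by positivity
  have h4 : 0 ≤ ‖y - z‖⁻¹ := by positivity
  rw [cr]
  linarith

lemma inv_tangent {d : ℝ} (hd : 0 < d) : 431 / 500 - 95 / 1000 * d ^ 2 ≤ d⁻¹ := by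
  -- tangent line type inequality with `a = 1.74`
  have h1 : (0 : ℝ) < d⁻¹ := by positivity
  have h2 : d⁻¹ - (431 / 500 - 95 / 1000 * d ^ 2)
      = (1 - 431 / 500 * d + 95 / 1000 * d ^ 3) / d := by
    field_simp
    ring
  have h3 : 0 ≤ (1 - 431 / 500 * d + 95 / 1000 * d ^ 3) / d := by
    apply div_nonneg _ hd.le
    nlinarith [mul_nonneg hd.le (sq_nonneg (d - 174 / 100)), sq_nonneg (d - 174 / 100)]
  linarith

lemma zero_hub (hu : C.IsPot u) {x y z : E} (hx : x ∈ C.K) (hy : y ∈ C.K) (hz : z ∈ C.K)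
    (hx' : x ∉ hub E) (hy' : y ∉ hub E) (hz' : z ∉ hub E) : C.Q u x y z := by
  refine Or.inl (lt_of_real hu hx hy hz ?_)
  intro hxy hxz hyz
  have bx := (hu.sat hx hx').2
  have by' := (hu.sat hy hy').2
  have bz := (hu.sat hz hz').2
  have nx := norm_sat hx hx'
  have ny := norm_sat hy hy'
  have nz := norm_sat hz hz'
  have s : ‖x - y‖ ^ 2 + ‖x - z‖ ^ 2 + ‖y - z‖ ^ 2 ≤ 3 * (‖x‖ ^ 2 + ‖y‖ ^ 2 + ‖z‖ ^ 2) := by
    have h1 := norm_sub_sq_real x y
    have h2 := norm_sub_sq_real x z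
    have h3 := norm_sub_sq_real y z
    have h4 := norm_add_sq_real (x + y) z
    have h5 := norm_add_sq_real x y
    rw [inner_add_left] at h4
    have h6 : 0 ≤ ‖x + y + z‖ ^ 2 := by positivity
    linarith
  have sx : ‖x‖ ^ 2 ≤ (401 / 400) ^ 2 := by gcongr
  have sy : ‖y‖ ^ 2 ≤ (401 / 400) ^ 2 := by gcongr
  have sz : ‖z‖ ^ 2 ≤ (401 / 400) ^ 2 := by gcongr
  have t1 := inv_tangent (norm_pos_iff.mpr (sub_ne_zero.mpr hxy))
  have t2 := inv_tangent (norm_pos_iff.mpr (sub_ne_zero.mpr hxz))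
  have t3 := inv_tangent (norm_pos_iff.mpr (sub_ne_zero.mpr hyz))
  rw [cr]
  nlinarith

/-- One hub point and two non-opposite satellites. -/
lemma one_hub_close (hu : C.IsPot u) {x y z : E} (hx : x ∈ hub E) (hy : y ∈ C.K) (hz : z ∈ C.K)
    (hy' : y ∉ hub E) (hz' : z ∉ hub E) (hyz' : ‖y - z‖ ≤ 143 / 100) : C.Q u x y z := by
  refine Or.inl (lt_of_real hu (Or.inl hx) hy hz ?_)
  intro hxy hxz hyz
  have bx := (hu.bounds (Or.inl hx : x ∈ C.K)).2
  have by' := (hu.sat hy hy').2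
  have bz := (hu.sat hz hz').2
  have ny := norm_sat hy hy'
  have nz := norm_sat hz hz'
  rw [mem_hub] at hx
  have t1 : 99 / 100 ≤ ‖x - y‖⁻¹ := by
    rw [le_inv_comm₀ (by norm_num) (norm_pos_iff.mpr (sub_ne_zero.mpr hxy))]
    have := norm_sub_le x y
    exact le_trans (this.trans (add_le_add hx ny)) (by norm_num)
  have t2 : 99 / 100 ≤ ‖x - z‖⁻¹ := by
    rw [le_inv_comm₀ (by norm_num) (norm_pos_iff.mpr (sub_ne_zero.mpr hxz))]
    have := norm_sub_le x z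
    exact le_trans (this.trans (add_le_add hx nz)) (by norm_num)
  have t3 : 69 / 100 ≤ ‖y - z‖⁻¹ := by
    rw [le_inv_comm₀ (by norm_num) (norm_pos_iff.mpr (sub_ne_zero.mpr hyz))]
    exact hyz'.trans (by norm_num)
  rw [cr]
  linarith

lemma near_lemma {p q y z : E} (hp : ‖y - p‖ ≤ 1 / 400) (hq : ‖z - q‖ ≤ 1 / 400)
    (hpq : ‖p - q‖ ^ 2 ≤ 2) : ‖y - z‖ ≤ 143 / 100 := by
  have h1 : ‖p - q‖ ≤ 1415 / 1000 := by
    apply le_of_sq_le_sq _ (by norm_num)
    exact hpq.trans (by norm_num)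
  have h2 : y - z = (y - p) - (z - q) + (p - q) := by abel
  rw [h2]
  have h3 := norm_add_le ((y - p) - (z - q)) (p - q)
  have h4 := norm_sub_le (y - p) (z - q)
  linarith

lemma sheet_case (hu : C.IsPot u) {x b b' : E} (hx : x ∈ hub E) (hb : b ∈ hub E)
    (hb' : b' ∈ hub E) : C.Q u x (C.F b') (C.G b) := by
  have h := C.crit b hb
  have h' := C.crit b' hb'
  have hx0 := (mem_hub.mp hx)
  have hKx : x ∈ C.K := Or.inl hx
  have hKy : C.F b' ∈ C.K := Or.inr (Or.inl ⟨b', hb', rfl⟩)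
  have hKz : C.G b ∈ C.K := Or.inr (Or.inr (Or.inl ⟨b, hb, rfl⟩))
  have n1 := (norm_xy C.he hx0 h'.hy).1
  have n2 := (norm_xz_of C.he hx0 h.hz).1
  have n3 := (norm_yz_of C.he h'.hy h.hz).1
  have ne1 : x ≠ C.F b' := sub_ne_zero.mp (norm_pos_iff.mp (by linarith))
  have ne2 : x ≠ C.G b := sub_ne_zero.mp (norm_pos_iff.mp (by linarith))
  have ne3 : C.F b' ≠ C.G b := sub_ne_zero.mp (norm_pos_iff.mp (by linarith))
  have L := local_opt C.he h ne1 ne2 ne3
  by_cases hcase : x = b ∧ C.F b' = C.F b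
  · obtain ⟨rfl, h2⟩ := hcase
    rw [h2]
    refine Or.inr ⟨?_, x, hb, Or.inl (Or.inl ⟨rfl, rfl, rfl⟩)⟩
    have bx := hu.bounds hKx
    have by' := hu.bounds hKy
    have bz := hu.bounds hKz
    rw [h2] at by' ne1 ne3
    rw [← ENNReal.ofReal_add (by linarith) (by linarith),
      ← ENNReal.ofReal_add (by linarith) (by linarith), coulombCost_eq ne1 ne2 ne3]
    congr 1
    rw [hu.hH x hb, hu.hF x hb, hu.hG x hb, Ut]
    ring
  · refine Or.inl (lt_of_real hu hKx hKy hKz ?_)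
    intro _ _ _
    have hpos : 0 < ‖x - b‖ ^ 2 + ‖C.F b' - C.F b‖ ^ 2 := by
      by_contra hcon
      have a1 : 0 ≤ ‖x - b‖ ^ 2 := by positivity
      have a2 : 0 ≤ ‖C.F b' - C.F b‖ ^ 2 := by positivity
      have a3 : ‖x - b‖ ^ 2 = 0 := by linarith
      have a4 : ‖C.F b' - C.F b‖ ^ 2 = 0 := by linarith
      apply hcase
      constructor
      · exact sub_eq_zero.mp (norm_eq_zero.mp (pow_eq_zero_iff (two_ne_zero) |>.mp a3))
      · exact sub_eq_zero.mp (norm_eq_zero.mp (pow_eq_zero_iff (two_ne_zero) |>.mp a4))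
    rw [hu.hH x hx, hu.hF b' hb', hu.hG b hb, Ut]
    linarith

lemma coulombCost_map (g : E ≃ₗᵢ[ℝ] E) (x y z : E) :
    coulombCost (g x) (g y) (g z) = coulombCost x y z := by
  simp only [coulombCost, g.isometry.edist_eq]

lemma hub_map (g : E ≃ₗᵢ[ℝ] E) {x : E} (hx : x ∈ hub E) : g x ∈ hub E := by
  rw [mem_hub] at *; rwa [g.norm_map]

lemma sheet_case' (hu : C.IsPot u) {x b b' : E} (hx : x ∈ hub E) (hb : b ∈ hub E)
    (hb' : b' ∈ hub E) : C.Q u x (C.g (C.F b')) (C.g (C.G b)) := by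
  have H := sheet_case hu (hub_map C.g hx) hb hb'
  have e1 : u (C.g x) = u x := by
    rw [hu.hH _ (hub_map C.g hx), hu.hH _ hx, Uh_map]
  have e2 : u (C.g (C.F b')) = u (C.F b') := by rw [hu.hgF b' hb', hu.hF b' hb']
  have e3 : u (C.g (C.G b)) = u (C.G b) := by rw [hu.hgG b hb, hu.hG b hb]
  have e4 : coulombCost x (C.g (C.F b')) (C.g (C.G b)) = coulombCost (C.g x) (C.F b') (C.G b) := by
    rw [← coulombCost_map C.g x, C.hgg, C.hgg]
  unfold Q at *
  rw [e2, e3, e4]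
  rw [e1] at H
  rcases H with H | ⟨H, c, hc, H'⟩
  · exact Or.inl H
  · refine Or.inr ⟨H, C.g c, hub_map C.g hc, ?_⟩
    have T : ∀ p q r y z : E, Perm3 p q r (C.g x) y z →
        Perm3 (C.g p) (C.g q) (C.g r) x (C.g y) (C.g z) := by
      intro p q r y z h
      have := h.map C.g
      rwa [C.hgg] at this
    rcases H' with H' | H'
    · right
      rw [C.hgg]
      exact T _ _ _ _ _ H'
    · left
      have := T _ _ _ _ _ H'
      simp only [C.hgg] at this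
      exact this

lemma norm_e_sub_ge : ‖C.e - C.g C.e‖ ^ 2 = 2 := by
  rw [norm_sub_sq_real, C.g.norm_map, C.he, C.hge]; norm_num

lemma norm_e_add_ge : ‖C.e + C.g C.e‖ ^ 2 = 2 := by
  rw [norm_add_sq_real, C.g.norm_map, C.he, C.hge]; norm_num

lemma one_hub (hu : C.IsPot u) {x y z : E} (hx : x ∈ hub E) (hy : y ∈ C.K) (hz : z ∈ C.K)
    (hy' : y ∉ hub E) (hz' : z ∉ hub E) : C.Q u x y z := by
  have key : ∀ b ∈ hub E, ‖C.F b - C.e‖ ≤ 1 / 400 ∧ ‖C.G b - (-C.e)‖ ≤ 1 / 400 ∧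
      ‖C.g (C.F b) - C.g C.e‖ ≤ 1 / 400 ∧ ‖C.g (C.G b) - (-C.g C.e)‖ ≤ 1 / 400 := by
    intro b hb
    have h := C.crit b hb
    refine ⟨h.hy.trans (by norm_num), ?_, ?_, ?_⟩
    · rw [sub_neg_eq_add]; exact h.hz
    · rw [← map_sub, C.g.norm_map]; exact h.hy.trans (by norm_num)
    · rw [sub_neg_eq_add, ← map_add, C.g.norm_map]; exact h.hz
  have m1 := norm_e_sub_ge (C := C)
  have m2 := norm_e_add_ge (C := C)
  have hKy := hy
  have hKz := hz
  rcases hy with h | ⟨b, hb, rfl⟩ | ⟨b, hb, rfl⟩ | ⟨b, hb, rfl⟩ | ⟨b, hb, rfl⟩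
  · exact absurd h hy'
  · rcases hz with h | ⟨c, hc, rfl⟩ | ⟨c, hc, rfl⟩ | ⟨c, hc, rfl⟩ | ⟨c, hc, rfl⟩
    · exact absurd h hz'
    · apply one_hub_close hu hx hKy hKz hy' hz'
      exact near_lemma (key b hb).1 (key c hc).1 (by simp)
    · exact sheet_case hu hx hc hb
    · apply one_hub_close hu hx hKy hKz hy' hz'
      exact near_lemma (key b hb).1 (key c hc).2.2.1 m1.le
    · apply one_hub_close hu hx hKy hKz hy' hz'
      exact near_lemma (key b hb).1 (key c hc).2.2.2 (by rw [sub_neg_eq_add]; exact m2.le)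
  · rcases hz with h | ⟨c, hc, rfl⟩ | ⟨c, hc, rfl⟩ | ⟨c, hc, rfl⟩ | ⟨c, hc, rfl⟩
    · exact absurd h hz'
    · exact (sheet_case hu hx hb hc).swap23
    · apply one_hub_close hu hx hKy hKz hy' hz'
      exact near_lemma (key b hb).2.1 (key c hc).2.1 (by simp)
    · apply one_hub_close hu hx hKy hKz hy' hz'
      refine near_lemma (key b hb).2.1 (key c hc).2.2.1 ?_
      rw [show -C.e - C.g C.e = -(C.e + C.g C.e) by abel, norm_neg]; exact m2.le
    · apply one_hub_close hu hx hKy hKz hy' hz'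
      refine near_lemma (key b hb).2.1 (key c hc).2.2.2 ?_
      rw [show -C.e - -C.g C.e = -(C.e - C.g C.e) by abel, norm_neg]; exact m1.le
  · rcases hz with h | ⟨c, hc, rfl⟩ | ⟨c, hc, rfl⟩ | ⟨c, hc, rfl⟩ | ⟨c, hc, rfl⟩
    · exact absurd h hz'
    · apply one_hub_close hu hx hKy hKz hy' hz'
      refine near_lemma (key b hb).2.2.1 (key c hc).1 ?_
      rw [norm_sub_rev]; exact m1.le
    · apply one_hub_close hu hx hKy hKz hy' hz'
      refine near_lemma (key b hb).2.2.1 (key c hc).2.1 ?_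
      rw [sub_neg_eq_add, add_comm]; exact m2.le
    · apply one_hub_close hu hx hKy hKz hy' hz'
      exact near_lemma (key b hb).2.2.1 (key c hc).2.2.1 (by simp)
    · exact sheet_case' hu hx hc hb
  · rcases hz with h | ⟨c, hc, rfl⟩ | ⟨c, hc, rfl⟩ | ⟨c, hc, rfl⟩ | ⟨c, hc, rfl⟩
    · exact absurd h hz'
    · apply one_hub_close hu hx hKy hKz hy' hz'
      refine near_lemma (key b hb).2.2.2 (key c hc).1 ?_
      rw [show -C.g C.e - C.e = -(C.e + C.g C.e) by abel, norm_neg]; exact m2.le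
    · apply one_hub_close hu hx hKy hKz hy' hz'
      refine near_lemma (key b hb).2.2.2 (key c hc).2.1 ?_
      rw [show -C.g C.e - -C.e = (C.e - C.g C.e) by abel]; exact m1.le
    · exact (sheet_case' hu hx hb hc).swap23
    · apply one_hub_close hu hx hKy hKz hy' hz'
      exact near_lemma (key b hb).2.2.2 (key c hc).2.2.2 (by simp)

/-- The pointwise duality inequality with its equality cases. -/
theorem Q_all (hu : C.IsPot u) {x y z : E} (hx : x ∈ C.K) (hy : y ∈ C.K) (hz : z ∈ C.K) :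
    C.Q u x y z := by
  by_cases hx' : x ∈ hub E <;> by_cases hy' : y ∈ hub E <;> by_cases hz' : z ∈ hub E
  · exact two_hubs hu hx' hy' hz
  · exact two_hubs hu hx' hy' hz
  · exact (two_hubs hu hx' hz' hy).swap23
  · exact one_hub hu hx' hy hz hy' hz'
  · exact (two_hubs hu hy' hz' hx).swap23.swap12
  · exact (one_hub hu hy' hx hz hx' hz').swap12
  · exact (one_hub hu hz' hx hy hx' hy').swap12.swap23
  · exact zero_hub hu hx hy hz hx' hy' hz'

end Config

end Vale.Agent.P121
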