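import Vale.Agent.P121.Meas

/-!
# Duality and the contradiction with Monge plans
-/

open scoped RealInnerProductSpace ENNReal NNReal
open Metric Set MeasureTheory

namespace Vale.Agent.P121

set_option linter.unusedSectionVars false

variable {E : Type*} [NormedAddCommGroup E] [InnerProductSpace ℝ E] [FiniteDimensional ℝ E]
  [MeasurableSpace E] [BorelSpace E]

lemma measurable_cost : Measurable (fun p : E × E × E => coulombCost p.1 p.2.1 p.2.2) := by
  unfold coulombCost
  have h1 : Measurable (fun p : E × E × E => edist p.1 p.2.1) :=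
    (continuous_fst.edist (continuous_fst.comp continuous_snd)).measurable
  have h2 : Measurable (fun p : E × E × E => edist p.1 p.2.2) :=
    (continuous_fst.edist (continuous_snd.comp continuous_snd)).measurable
  have h3 : Measurable (fun p : E × E × E => edist p.2.1 p.2.2) :=
    ((continuous_fst.comp continuous_snd).edist (continuous_snd.comp continuous_snd)).measurable
  exact (h1.inv.add h2.inv).add h3.inv

namespace Config

variable {C : Config E}

/-- The dual potential with values in `ℝ≥0∞`. -/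
noncomputable def pU (C : Config E) (x : E) : ℝ≥0∞ := ENNReal.ofReal (C.pot x)

lemma measurable_pU : Measurable C.pU := measurable_pot.ennreal_ofReal

/-- The dual sum. -/
noncomputable def dsum (C : Config E) (p : E × E × E) : ℝ≥0∞ := C.pU p.1 + C.pU p.2.1 + C.pU p.2.2

lemma measurable_dsum : Measurable C.dsum := by
  have := measurable_pU (C := C)
  unfold dsum
  exact ((this.comp measurable_fst).add (this.comp (measurable_fst.comp measurable_snd))).add
    (this.comp (measurable_snd.comp measurable_snd))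

lemma lintegral_dsum {μ : Measure E} {π : Measure (E × E × E)} (h : IsCoupling μ π) :
    ∫⁻ p, C.dsum p ∂π = ∫⁻ x, C.pU x ∂μ + ∫⁻ x, C.pU x ∂μ + ∫⁻ x, C.pU x ∂μ := by
  obtain ⟨h1, h2, h3⟩ := h
  have m := measurable_pU (C := C)
  have f1 : Measurable (fun p : E × E × E => p.1) := measurable_fst
  have f2 : Measurable (fun p : E × E × E => p.2.1) := measurable_fst.comp measurable_snd
  have f3 : Measurable (fun p : E × E × E => p.2.2) := measurable_snd.comp measurable_snd
  have g1 : Measurable (fun p : E × E × E => C.pU p.1) := m.comp f1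
  have g2 : Measurable (fun p : E × E × E => C.pU p.2.1) := m.comp f2
  have g12 : Measurable (fun p : E × E × E => C.pU p.1 + C.pU p.2.1) := g1.add g2
  unfold dsum
  rw [lintegral_add_left g12, lintegral_add_left g1]
  have i1 : ∫⁻ x, C.pU x ∂μ = ∫⁻ p, C.pU p.1 ∂π := by rw [← h1, lintegral_map m f1]
  have i2 : ∫⁻ x, C.pU x ∂μ = ∫⁻ p, C.pU p.2.1 ∂π := by rw [← h2, lintegral_map m f2]
  have i3 : ∫⁻ x, C.pU x ∂μ = ∫⁻ p, C.pU p.2.2 ∂π := by rw [← h3, lintegral_map m f3]
  rw [← i1, ← i2, ← i3]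

lemma ae_K3 {ν : Measure E} [ν.IsAddHaarMeasure] (hF : Measurable C.F) (hG : Measurable C.G)
    {π : Measure (E × E × E)} (h : IsCoupling (C.mu ν) π) :
    ∀ᵐ p ∂π, p.1 ∈ C.K ∧ p.2.1 ∈ C.K ∧ p.2.2 ∈ C.K := by
  obtain ⟨h1, h2, h3⟩ := h
  have f1 : Measurable (fun p : E × E × E => p.1) := measurable_fst
  have f2 : Measurable (fun p : E × E × E => p.2.1) := measurable_fst.comp measurable_snd
  have f3 : Measurable (fun p : E × E × E => p.2.2) := measurable_snd.comp measurable_snd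
  have k := ae_K ν hF hG
  have a1 : ∀ᵐ p ∂π, p.1 ∈ C.K := ae_of_ae_map f1.aemeasurable (by rw [h1]; exact k)
  have a2 : ∀ᵐ p ∂π, p.2.1 ∈ C.K := ae_of_ae_map f2.aemeasurable (by rw [h2]; exact k)
  have a3 : ∀ᵐ p ∂π, p.2.2 ∈ C.K := ae_of_ae_map f3.aemeasurable (by rw [h3]; exact k)
  filter_upwards [a1, a2, a3] with p b1 b2 b3
  exact ⟨b1, b2, b3⟩

lemma dsum_le_cost {ν : Measure E} [ν.IsAddHaarMeasure] (hF : Measurable C.F)
    (hG : Measurable C.G) {π : Measure (E × E × E)} (h : IsCoupling (C.mu ν) π) :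
    ∀ᵐ p ∂π, C.dsum p ≤ coulombCost p.1 p.2.1 p.2.2 := by
  filter_upwards [ae_K3 hF hG h] with p ⟨h1, h2, h3⟩
  rcases Q_all isPot h1 h2 h3 with h | ⟨h, -⟩
  · exact h.le
  · exact h.le

/-- The common value. -/
noncomputable def val (C : Config E) (ν : Measure E) : ℝ≥0∞ :=
  ∫⁻ x, C.pU x ∂(C.mu ν) + ∫⁻ x, C.pU x ∂(C.mu ν) + ∫⁻ x, C.pU x ∂(C.mu ν)

lemma val_le {ν : Measure E} [ν.IsAddHaarMeasure] (hF : Measurable C.F)
    (hG : Measurable C.G) {π : Measure (E × E × E)} (h : IsCoupling (C.mu ν) π) :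
    C.val ν ≤ planCost π := by
  rw [val, ← lintegral_dsum h]
  exact lintegral_mono_ae (dsum_le_cost hF hG h)

lemma val_lt_top {ν : Measure E} [ν.IsAddHaarMeasure] (hF : Measurable C.F)
    (hG : Measurable C.G) : C.val ν < ⊤ := by
  have : ∫⁻ x, C.pU x ∂(C.mu ν) ≤ ENNReal.ofReal (3 / 2) := by
    calc ∫⁻ x, C.pU x ∂(C.mu ν) ≤ ∫⁻ _, ENNReal.ofReal (3 / 2) ∂(C.mu ν) := by
          apply lintegral_mono_ae
          filter_upwards [ae_K ν hF hG] with x hx
          exact ENNReal.ofReal_le_ofReal (isPot.bounds hx).2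
      _ = ENNReal.ofReal (3 / 2) := by
          rw [lintegral_const, mu_univ ν hF hG, mul_one]
  have h : ∫⁻ x, C.pU x ∂(C.mu ν) < ⊤ := this.trans_lt ENNReal.ofReal_lt_top
  rw [val]
  exact ENNReal.add_lt_top.mpr ⟨ENNReal.add_lt_top.mpr ⟨h, h⟩, h⟩

lemma sheet_eq {b : E} (hb : b ∈ hub E) :
    coulombCost b (C.F b) (C.G b) = C.pU b + C.pU (C.F b) + C.pU (C.G b) := by
  have h := C.crit b hb
  have n1 := (norm_xy C.he h.hx h.hy).1
  have n2 := (norm_xz_of C.he h.hx h.hz).1
  have n3 := (norm_yz_of C.he h.hy h.hz).1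
  have ne1 : b ≠ C.F b := sub_ne_zero.mp (norm_pos_iff.mp (by linarith))
  have ne2 : b ≠ C.G b := sub_ne_zero.mp (norm_pos_iff.mp (by linarith))
  have ne3 : C.F b ≠ C.G b := sub_ne_zero.mp (norm_pos_iff.mp (by linarith))
  have hKx : b ∈ C.K := Or.inl hb
  have hKy : C.F b ∈ C.K := Or.inr (Or.inl ⟨b, hb, rfl⟩)
  have hKz : C.G b ∈ C.K := Or.inr (Or.inr (Or.inl ⟨b, hb, rfl⟩))
  have hu := isPot (C := C)
  have bx := hu.bounds hKx
  have by' := hu.bounds hKy
  have bz := hu.bounds hKz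
  rw [pU, pU, pU, ← ENNReal.ofReal_add (by linarith) (by linarith),
    ← ENNReal.ofReal_add (by linarith) (by linarith), coulombCost_eq ne1 ne2 ne3]
  congr 1
  rw [hu.hH b hb, hu.hF b hb, hu.hG b hb, Ut]
  ring

lemma sheet_eq' {b : E} (hb : b ∈ hub E) :
    coulombCost b (C.F' b) (C.G' b) = C.pU b + C.pU (C.F' b) + C.pU (C.G' b) := by
  have hgb := hub_map C.g hb
  have H := sheet_eq (C := C) hgb
  have hu := isPot (C := C)
  have e1 : C.pU (C.g b) = C.pU b := by
    rw [pU, pU, hu.hH _ hgb, hu.hH _ hb, Uh_map]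
  have e2 : C.pU (C.F' b) = C.pU (C.F (C.g b)) := by
    rw [pU, pU, F', hu.hgF _ hgb, hu.hF _ hgb]
  have e3 : C.pU (C.G' b) = C.pU (C.G (C.g b)) := by
    rw [pU, pU, G', hu.hgG _ hgb, hu.hG _ hgb]
  rw [e2, e3, ← e1, ← H, F', G', ← coulombCost_map C.g b, C.hgg, C.hgg]

lemma cost_ae_cyc {ν : Measure E} [ν.IsAddHaarMeasure] {F G : E → E} (hF : Measurable F)
    (hG : Measurable G)
    (H : ∀ b ∈ hub E, coulombCost b (F b) (G b) = C.pU b + C.pU (F b) + C.pU (G b)) :
    ∀ᵐ p ∂(cyc (mh ν) F G), coulombCost p.1 p.2.1 p.2.2 = C.dsum p := by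
  have meas : MeasurableSet {p : E × E × E | coulombCost p.1 p.2.1 p.2.2 = C.dsum p} :=
    measurableSet_eq_fun measurable_cost measurable_dsum
  rw [cyc, ae_add_measure_iff, ae_add_measure_iff]
  refine ⟨⟨?_, ?_⟩, ?_⟩
  · rw [ae_map_iff (by fun_prop) meas]
    filter_upwards [ae_hub ν] with x hx
    exact H x hx
  · rw [ae_map_iff (by fun_prop) meas]
    filter_upwards [ae_hub ν] with x hx
    have := H x hx
    rw [dsum]
    show coulombCost (F x) (G x) x = C.pU (F x) + C.pU (G x) + C.pU x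
    rw [coulombCost_swap23, coulombCost_swap12, this]
    ring
  · rw [ae_map_iff (by fun_prop) meas]
    filter_upwards [ae_hub ν] with x hx
    have := H x hx
    rw [dsum]
    show coulombCost (G x) x (F x) = C.pU (G x) + C.pU x + C.pU (F x)
    rw [coulombCost_swap12, coulombCost_swap23, this]
    ring

lemma planCost_plan {ν : Measure E} [ν.IsAddHaarMeasure] (hF : Measurable C.F)
    (hG : Measurable C.G) : planCost (C.plan ν) = C.val ν := by
  rw [val, ← lintegral_dsum (plan_coupling ν hF hG), planCost]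
  apply lintegral_congr_ae
  have h : ∀ᵐ p ∂(cyc (mh ν) C.F C.G + cyc (mh ν) C.F' C.G'),
      coulombCost p.1 p.2.1 p.2.2 = C.dsum p := by
    rw [ae_add_measure_iff]
    exact ⟨cost_ae_cyc hF hG fun b hb => sheet_eq hb,
      cost_ae_cyc (measurable_F' hF) (measurable_G' hG) fun b hb => sheet_eq' hb⟩
  exact Measure.ae_smul_measure h _

lemma kantorovich_eq {ν : Measure E} [ν.IsAddHaarMeasure] (hF : Measurable C.F)
    (hG : Measurable C.G) : kantorovichValue (C.mu ν) = C.val ν := by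
  apply le_antisymm
  · rw [← planCost_plan hF hG]
    exact iInf₂_le _ (plan_coupling ν hF hG)
  · exact le_iInf₂ fun π hπ => val_le hF hG hπ

/-- Structure of optimal Monge plans. -/
lemma monge_ae {ν : Measure E} [ν.IsAddHaarMeasure] (hF : Measurable C.F)
    (hG : Measurable C.G) {T₂ T₃ : E → E} (hT : IsMongePair (C.mu ν) T₂ T₃)
    (hopt : mongeCost (C.mu ν) T₂ T₃ = kantorovichValue (C.mu ν)) :
    ∀ᵐ x ∂(C.mu ν), ∃ b ∈ hub E, Perm3 b (C.F b) (C.G b) x (T₂ x) (T₃ x) ∨
      Perm3 b (C.F' b) (C.G' b) x (T₂ x) (T₃ x) := by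
  obtain ⟨m2, m3, h2, h3⟩ := hT
  have mT : Measurable (fun x => (x, T₂ x, T₃ x)) := by fun_prop
  set γ := (C.mu ν).map (fun x => (x, T₂ x, T₃ x)) with hγ
  have hc : IsCoupling (C.mu ν) γ := by
    refine ⟨?_, ?_, ?_⟩
    · rw [hγ, Measure.map_map (by fun_prop) mT]; exact Measure.map_id
    · rw [hγ, Measure.map_map (by fun_prop) mT]; exact h2
    · rw [hγ, Measure.map_map (by fun_prop) mT]; exact h3
  have hcost : ∫⁻ p, coulombCost p.1 p.2.1 p.2.2 ∂γ = C.val ν := by
    rw [hγ, lintegral_map measurable_cost mT, ← kantorovich_eq hF hG, ← hopt, mongeCost]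
  have hle := dsum_le_cost hF hG hc
  have heq : C.dsum =ᵐ[γ] (fun p => coulombCost p.1 p.2.1 p.2.2) := by
    apply ae_eq_of_ae_le_of_lintegral_le hle
    · rw [lintegral_dsum hc]
      exact (val_lt_top hF hG).ne
    · exact measurable_cost.aemeasurable
    · rw [hcost, lintegral_dsum hc, val]
  have hall : ∀ᵐ p ∂γ, (∃ b ∈ hub E, Perm3 b (C.F b) (C.G b) p.1 p.2.1 p.2.2 ∨
      Perm3 b (C.F' b) (C.G' b) p.1 p.2.1 p.2.2) := by
    filter_upwards [heq, ae_K3 hF hG hc] with p hp ⟨k1, k2, k3⟩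
    rcases Q_all isPot k1 k2 k3 with h | ⟨-, h⟩
    · exact absurd hp h.ne
    · exact h
  exact ae_of_ae_map mT.aemeasurable hall

end Config

end Vale.Agent.P121
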