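import Vale.Agent.P121.Dual

/-!
# No optimal Monge plan
-/

open scoped RealInnerProductSpace ENNReal NNReal
open Metric Set MeasureTheory

namespace Vale.Agent.P121

set_option linter.unusedSectionVars false
set_option linter.unusedSimpArgs false

variable {E : Type*} [NormedAddCommGroup E] [InnerProductSpace ℝ E] [FiniteDimensional ℝ E]
  [MeasurableSpace E] [BorelSpace E]

lemma mh_congr (ν : Measure E) [ν.IsAddHaarMeasure] {s t : Set E}
    (h : ∀ x ∈ hub E, (x ∈ s ↔ x ∈ t)) : mh ν s = mh ν t := by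
  apply measure_congr
  filter_upwards [ae_hub ν] with x hx
  exact propext (h x hx)

lemma mh_zero (ν : Measure E) [ν.IsAddHaarMeasure] {s : Set E}
    (h : ∀ x ∈ hub E, x ∉ s) : mh ν s = 0 := by
  refine measure_mono_null ?_ (mh_compl ν)
  intro x hx hx'
  exact h x hx' hx

namespace Config

variable {C : Config E}

lemma near_F' {b : E} (hb : b ∈ hub E) : ‖C.F' b - C.g C.e‖ ≤ 1 / 400 := near_gF (hub_map C.g hb)
lemma near_G' {b : E} (hb : b ∈ hub E) : ‖C.G' b - (-C.g C.e)‖ ≤ 1 / 400 :=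
  near_gG (hub_map C.g hb)

section facts

variable {b : E} {W : Set E}

lemma f1 (hb : b ∈ hub E) (hW : W ⊆ hub E) : b ∉ C.F '' W := fun h =>
  notMem_F (C := C) (near_hub hb) (by rw [norm_sub_sq_comm]; exact far1) (image_mono hW h)
lemma f2 (hb : b ∈ hub E) (hW : W ⊆ hub E) : b ∉ C.G '' W := fun h =>
  notMem_G (C := C) (near_hub hb) (by rw [norm_sub_sq_comm]; exact far2) (image_mono hW h)
lemma f3 (hb : b ∈ hub E) (hW : W ⊆ hub E) : C.F b ∈ C.F '' W ↔ b ∈ W := by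
  constructor
  · rintro ⟨c, hc, h⟩
    rwa [← injF (hW hc) hb h]
  · exact mem_image_of_mem _
lemma f4 (hb : b ∈ hub E) (hW : W ⊆ hub E) : C.G b ∈ C.G '' W ↔ b ∈ W := by
  constructor
  · rintro ⟨c, hc, h⟩
    rwa [← injG (hW hc) hb h]
  · exact mem_image_of_mem _
lemma f5 (hb : b ∈ hub E) (hW : W ⊆ hub E) : C.G b ∉ C.F '' W := fun h =>
  notMem_F (C := C) (near_G hb) far5 (image_mono hW h)
lemma f6 (hb : b ∈ hub E) (hW : W ⊆ hub E) : C.F b ∉ C.G '' W := fun h =>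
  notMem_G (C := C) (near_F hb) (by rw [norm_sub_sq_comm]; exact far5) (image_mono hW h)
lemma f7 (hb : b ∈ hub E) : C.F b ∉ hub E := notMem_hub (near_F hb) far1
lemma f8 (hb : b ∈ hub E) : C.G b ∉ hub E := notMem_hub (near_G hb) far2
lemma f9 (hb : b ∈ hub E) : C.F' b ∉ hub E := notMem_hub (near_F' hb) far3
lemma f10 (hb : b ∈ hub E) : C.G' b ∉ hub E := notMem_hub (near_G' hb) far4
lemma f11 (hb : b ∈ hub E) (hW : W ⊆ hub E) : C.F' b ∉ C.F '' W := fun h =>
  notMem_F (C := C) (near_F' hb) far6 (image_mono hW h)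
lemma f12 (hb : b ∈ hub E) (hW : W ⊆ hub E) : C.G' b ∉ C.F '' W := fun h =>
  notMem_F (C := C) (near_G' hb) far7 (image_mono hW h)
lemma f13 (hb : b ∈ hub E) (hW : W ⊆ hub E) : C.F' b ∉ C.G '' W := fun h =>
  notMem_G (C := C) (near_F' hb) far8 (image_mono hW h)
lemma f14 (hb : b ∈ hub E) (hW : W ⊆ hub E) : C.G' b ∉ C.G '' W := fun h =>
  notMem_G (C := C) (near_G' hb) far9 (image_mono hW h)

end facts

/-- The event: hub point on the first sheet. -/
def Ev (C : Config E) (T₂ : E → E) : Set E :=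
  {x | x ∈ hub E ∧ (T₂ x ∈ C.F '' hub E ∨ T₂ x ∈ C.G '' hub E)}

lemma measurableSet_Ev {T₂ : E → E} (hT : Measurable T₂) : MeasurableSet (C.Ev T₂) :=
  meas_hub.inter ((hT meas_F).union (hT meas_G))

open Classical in
/-- The counting identity. -/
lemma count_identity {T₂ T₃ : E → E} {W : Set E} (hW : W ⊆ hub E) {x : E}
    (h : ∃ b ∈ hub E, Perm3 b (C.F b) (C.G b) x (T₂ x) (T₃ x) ∨
      Perm3 b (C.F' b) (C.G' b) x (T₂ x) (T₃ x)) :
    (C.F '' W).indicator (1 : E → ℝ≥0∞) x + (C.F '' W).indicator (1 : E → ℝ≥0∞) (T₂ x)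
      + (C.F '' W).indicator (1 : E → ℝ≥0∞) (T₃ x) =
    (W ∩ C.Ev T₂).indicator (1 : E → ℝ≥0∞) x + (C.F '' W).indicator (1 : E → ℝ≥0∞) x
      + (C.G '' W).indicator (1 : E → ℝ≥0∞) x := by
  obtain ⟨b, hb, h | h⟩ := h
  · have a1 := f1 (C := C) hb hW
    have a2 := f2 (C := C) hb hW
    have a3 := f3 (C := C) hb hW
    have a4 := f4 (C := C) hb hW
    have a5 := f5 (C := C) hb hW
    have a6 := f6 (C := C) hb hW
    have a7 := f7 (C := C) hb
    have a8 := f8 (C := C) hb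
    have a9 : C.F b ∉ W ∩ C.Ev T₂ := fun h => a7 (hW h.1)
    have a10 : C.G b ∉ W ∩ C.Ev T₂ := fun h => a8 (hW h.1)
    rcases h with ⟨h1, h2, h3⟩ | ⟨h1, h2, h3⟩ | ⟨h1, h2, h3⟩ | ⟨h1, h2, h3⟩ | ⟨h1, h2, h3⟩ | ⟨h1, h2, h3⟩
    · have e : b ∈ W ∩ C.Ev T₂ ↔ b ∈ W := by
        constructor
        · exact fun h => h.1
        · intro h
          refine ⟨h, hb, Or.inl ?_⟩
          rw [← h1, h2]; exact mem_image_of_mem _ hb
      rw [h2, h3, h1]
      simp only [indicator_apply, Pi.one_apply, a1, a2, a3, a4, a5, a6, e, if_false, zero_add, add_zero]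
    · have e : b ∈ W ∩ C.Ev T₂ ↔ b ∈ W := by
        constructor
        · exact fun h => h.1
        · intro h
          refine ⟨h, hb, Or.inr ?_⟩
          rw [← h1, h2]; exact mem_image_of_mem _ hb
      rw [h2, h3, h1]
      simp only [indicator_apply, Pi.one_apply, a1, a2, a3, a4, a5, a6, e, if_false, zero_add, add_zero]
    · rw [h2, h3, h1]
      simp only [indicator_apply, Pi.one_apply, a1, a2, a3, a4, a5, a6, a9, a10, if_false, zero_add, add_zero]
    · rw [h2, h3, h1]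
      simp only [indicator_apply, Pi.one_apply, a1, a2, a3, a4, a5, a6, a9, a10, if_false, zero_add, add_zero]
    · rw [h2, h3, h1]
      simp only [indicator_apply, Pi.one_apply, a1, a2, a3, a4, a5, a6, a9, a10, if_false, zero_add, add_zero]
    · rw [h2, h3, h1]
      simp only [indicator_apply, Pi.one_apply, a1, a2, a3, a4, a5, a6, a9, a10, if_false, zero_add, add_zero]
  · have a1 := f1 (C := C) hb hW
    have a2 := f2 (C := C) hb hW
    have a3 := f11 (C := C) hb hW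
    have a4 := f12 (C := C) hb hW
    have a5 := f13 (C := C) hb hW
    have a6 := f14 (C := C) hb hW
    have a7 := f9 (C := C) hb
    have a8 := f10 (C := C) hb
    have a9 : C.F' b ∉ W ∩ C.Ev T₂ := fun h => a7 (hW h.1)
    have a10 : C.G' b ∉ W ∩ C.Ev T₂ := fun h => a8 (hW h.1)
    rcases h with ⟨h1, h2, h3⟩ | ⟨h1, h2, h3⟩ | ⟨h1, h2, h3⟩ | ⟨h1, h2, h3⟩ | ⟨h1, h2, h3⟩ | ⟨h1, h2, h3⟩
    · have e : b ∉ W ∩ C.Ev T₂ := by
        rintro ⟨_, _, h⟩
        rw [← h1, h2] at h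
        rcases h with h | h
        · exact f11 hb subset_rfl h
        · exact f13 hb subset_rfl h
      rw [h2, h3, h1]
      simp only [indicator_apply, Pi.one_apply, a1, a2, a3, a4, a5, a6, e, if_false, zero_add, add_zero]
    · have e : b ∉ W ∩ C.Ev T₂ := by
        rintro ⟨_, _, h⟩
        rw [← h1, h2] at h
        rcases h with h | h
        · exact f12 hb subset_rfl h
        · exact f14 hb subset_rfl h
      rw [h2, h3, h1]
      simp only [indicator_apply, Pi.one_apply, a1, a2, a3, a4, a5, a6, e, if_false, zero_add, add_zero]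
    · rw [h2, h3, h1]
      simp only [indicator_apply, Pi.one_apply, a1, a2, a3, a4, a5, a6, a9, a10, if_false, zero_add, add_zero]
    · rw [h2, h3, h1]
      simp only [indicator_apply, Pi.one_apply, a1, a2, a3, a4, a5, a6, a9, a10, if_false, zero_add, add_zero]
    · rw [h2, h3, h1]
      simp only [indicator_apply, Pi.one_apply, a1, a2, a3, a4, a5, a6, a9, a10, if_false, zero_add, add_zero]
    · rw [h2, h3, h1]
      simp only [indicator_apply, Pi.one_apply, a1, a2, a3, a4, a5, a6, a9, a10, if_false, zero_add, add_zero]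

lemma meas_FW {W : Set E} (hW : W ⊆ hub E) (hm : MeasurableSet W) :
    MeasurableSet (C.F '' W) :=
  hm.image_of_continuousOn_injOn (contF.mono hW) (injF.mono hW)

lemma meas_GW {W : Set E} (hW : W ⊆ hub E) (hm : MeasurableSet W) :
    MeasurableSet (C.G '' W) :=
  hm.image_of_continuousOn_injOn (contG.mono hW) (injG.mono hW)

lemma mu_FW {ν : Measure E} [ν.IsAddHaarMeasure] (hF : Measurable C.F)
    (hG : Measurable C.G) {W : Set E} (hW : W ⊆ hub E) (hm : MeasurableSet W) :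
    C.mu ν (C.F '' W) = 6⁻¹ * mh ν W := by
  rw [mu_apply ν hF hG (meas_FW hW hm)]
  rw [mh_zero ν (s := C.F '' W) fun x hx => f1 hx hW,
    mh_congr ν (s := C.F ⁻¹' (C.F '' W)) (t := W) fun x hx => f3 hx hW,
    mh_zero ν (s := C.G ⁻¹' (C.F '' W)) fun x hx => f5 hx hW,
    mh_zero ν (s := C.F' ⁻¹' (C.F '' W)) fun x hx => f11 hx hW,
    mh_zero ν (s := C.G' ⁻¹' (C.F '' W)) fun x hx => f12 hx hW]
  simp

lemma mu_GW {ν : Measure E} [ν.IsAddHaarMeasure] (hF : Measurable C.F)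
    (hG : Measurable C.G) {W : Set E} (hW : W ⊆ hub E) (hm : MeasurableSet W) :
    C.mu ν (C.G '' W) = 6⁻¹ * mh ν W := by
  rw [mu_apply ν hF hG (meas_GW hW hm)]
  rw [mh_zero ν (s := C.G '' W) fun x hx => f2 hx hW,
    mh_zero ν (s := C.F ⁻¹' (C.G '' W)) fun x hx => f6 hx hW,
    mh_congr ν (s := C.G ⁻¹' (C.G '' W)) (t := W) fun x hx => f4 hx hW,
    mh_zero ν (s := C.F' ⁻¹' (C.G '' W)) fun x hx => f13 hx hW,
    mh_zero ν (s := C.G' ⁻¹' (C.G '' W)) fun x hx => f14 hx hW]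
  simp

lemma mu_W {ν : Measure E} [ν.IsAddHaarMeasure] (hF : Measurable C.F)
    (hG : Measurable C.G) {W : Set E} (hW : W ⊆ hub E) (hm : MeasurableSet W) :
    C.mu ν W = 6⁻¹ * (mh ν W + mh ν W) := by
  rw [mu_apply ν hF hG hm]
  rw [mh_zero ν (s := C.F ⁻¹' W) fun x hx h => f7 hx (hW h),
    mh_zero ν (s := C.G ⁻¹' W) fun x hx h => f8 hx (hW h),
    mh_zero ν (s := C.F' ⁻¹' W) fun x hx h => f9 hx (hW h),
    mh_zero ν (s := C.G' ⁻¹' W) fun x hx h => f10 hx (hW h)]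
  simp

lemma count_measure {ν : Measure E} [ν.IsAddHaarMeasure] (hF : Measurable C.F)
    (hG : Measurable C.G) {T₂ T₃ : E → E} (hT : IsMongePair (C.mu ν) T₂ T₃)
    (hopt : mongeCost (C.mu ν) T₂ T₃ = kantorovichValue (C.mu ν)) {W : Set E} (hW : W ⊆ hub E)
    (hm : MeasurableSet W) :
    C.mu ν (W ∩ C.Ev T₂) = 6⁻¹ * mh ν W := by
  have key := monge_ae hF hG hT hopt
  obtain ⟨m2, m3, h2, h3⟩ := hT
  have mFW := meas_FW (C := C) hW hm
  have mGW := meas_GW (C := C) hW hm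
  have mEv := hm.inter (measurableSet_Ev (C := C) m2)
  have i1 : ∫⁻ x, (C.F '' W).indicator (1 : E → ℝ≥0∞) x ∂(C.mu ν) = 6⁻¹ * mh ν W := by
    rw [lintegral_indicator_one mFW, mu_FW hF hG hW hm]
  have i2 : ∫⁻ x, (C.F '' W).indicator (1 : E → ℝ≥0∞) (T₂ x) ∂(C.mu ν) = 6⁻¹ * mh ν W := by
    rw [← i1]
    nth_rewrite 2 [← h2]
    rw [lintegral_map (measurable_one.indicator mFW) m2]
  have i3 : ∫⁻ x, (C.F '' W).indicator (1 : E → ℝ≥0∞) (T₃ x) ∂(C.mu ν) = 6⁻¹ * mh ν W := by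
    rw [← i1]
    nth_rewrite 2 [← h3]
    rw [lintegral_map (measurable_one.indicator mFW) m3]
  have i4 : ∫⁻ x, (C.G '' W).indicator (1 : E → ℝ≥0∞) x ∂(C.mu ν) = 6⁻¹ * mh ν W := by
    rw [lintegral_indicator_one mGW, mu_GW hF hG hW hm]
  have i5 : ∫⁻ x, (W ∩ C.Ev T₂).indicator (1 : E → ℝ≥0∞) x ∂(C.mu ν)
      = C.mu ν (W ∩ C.Ev T₂) := by
    rw [lintegral_indicator_one mEv]
  have n1 : Measurable (fun x => (C.F '' W).indicator (1 : E → ℝ≥0∞) x) :=
    measurable_one.indicator mFW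
  have n2 : Measurable (fun x => (C.F '' W).indicator (1 : E → ℝ≥0∞) (T₂ x)) := n1.comp m2
  have n3 : Measurable (fun x => (W ∩ C.Ev T₂).indicator (1 : E → ℝ≥0∞) x) :=
    measurable_one.indicator mEv
  have tot : ∫⁻ x, ((C.F '' W).indicator (1 : E → ℝ≥0∞) x
      + (C.F '' W).indicator (1 : E → ℝ≥0∞) (T₂ x)
      + (C.F '' W).indicator (1 : E → ℝ≥0∞) (T₃ x)) ∂(C.mu ν) =
    ∫⁻ x, ((W ∩ C.Ev T₂).indicator (1 : E → ℝ≥0∞) x + (C.F '' W).indicator (1 : E → ℝ≥0∞) x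
      + (C.G '' W).indicator (1 : E → ℝ≥0∞) x) ∂(C.mu ν) := by
    apply lintegral_congr_ae
    filter_upwards [key] with x hx
    exact count_identity hW hx
  have n12 : Measurable (fun x => (C.F '' W).indicator (1 : E → ℝ≥0∞) x
      + (C.F '' W).indicator (1 : E → ℝ≥0∞) (T₂ x)) := n1.add n2
  have n31 : Measurable (fun x => (W ∩ C.Ev T₂).indicator (1 : E → ℝ≥0∞) x
      + (C.F '' W).indicator (1 : E → ℝ≥0∞) x) := n3.add n1
  rw [lintegral_add_left n12, lintegral_add_left n1, lintegral_add_left n31,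
    lintegral_add_left n3, i1, i2, i3, i4, i5] at tot
  have fin : 6⁻¹ * mh ν W ≠ ⊤ := by
    apply ENNReal.mul_ne_top (by norm_num)
    refine ne_top_of_le_ne_top ENNReal.one_ne_top ?_
    rw [← mh_univ ν]
    exact measure_mono (subset_univ _)
  have t1 := (ENNReal.add_left_inj fin).mp tot
  have t2 := (ENNReal.add_left_inj fin).mp t1
  exact t2.symm

/-- There is no optimal Monge plan. -/
theorem no_monge {ν : Measure E} [ν.IsAddHaarMeasure] (hF : Measurable C.F)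
    (hG : Measurable C.G) : ¬ ∃ T₂ T₃ : E → E, IsMongePair (C.mu ν) T₂ T₃ ∧
      mongeCost (C.mu ν) T₂ T₃ = kantorovichValue (C.mu ν) := by
  rintro ⟨T₂, T₃, hT, hopt⟩
  have mEv : MeasurableSet (C.Ev T₂) := measurableSet_Ev hT.1
  have sub : C.Ev T₂ ⊆ hub E := fun x hx => hx.1
  have h1 := count_measure hF hG hT hopt sub mEv
  have h2 := count_measure hF hG hT hopt (subset_rfl : hub E ⊆ hub E) meas_hub
  rw [inter_self, mu_W hF hG sub mEv] at h1
  rw [inter_eq_self_of_subset_right sub, mu_W hF hG sub mEv, mh_hub, mul_one] at h2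
  rw [h2] at h1
  have h3 : mh ν (C.Ev T₂) = 1 := by
    have : (6 : ℝ≥0∞) * 6⁻¹ = 6 * (6⁻¹ * mh ν (C.Ev T₂)) := by rw [← h1]
    rw [← mul_assoc, ENNReal.mul_inv_cancel (by norm_num) (by norm_num), one_mul] at this
    exact this.symm
  rw [h3] at h2
  have h4 : (6 : ℝ≥0∞) * (6⁻¹ * (1 + 1)) = 6 * 6⁻¹ := by rw [h2]
  rw [← mul_assoc, ENNReal.mul_inv_cancel (by norm_num) (by norm_num), one_mul] at h4
  norm_num at h4

end Config

/-- The general form of the counterexample. -/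
theorem main (ν : Measure E) [ν.IsAddHaarMeasure] (e e' : E) (he : ‖e‖ = 1) (he' : ‖e'‖ = 1)
    (hee' : ⟪e, e'⟫ = 0) :
    ∃ μ : Measure E, IsProbabilityMeasure μ ∧ (∃ C : ℝ≥0∞, C ≠ ⊤ ∧ μ ≤ C • ν) ∧
      (∃ K : Set E, IsCompact K ∧ μ Kᶜ = 0) ∧ kantorovichValue μ < ⊤ ∧
      ¬ ∃ T₂ T₃ : E → E, IsMongePair μ T₂ T₃ ∧ mongeCost μ T₂ T₃ = kantorovichValue μ := by
  obtain ⟨F, G, hF, hG, hcrit⟩ := exists_FG e he
  let g : E ≃ₗᵢ[ℝ] E := (ℝ ∙ (e - e'))ᗮ.reflection
  have hge : g e = e' := by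
    have := Submodule.reflection_sub (v := e) (w := e') (by rw [he, he'])
    exact this
  let C : Config E := ⟨e, g, F, G, he, fun x => Submodule.reflection_reflection _ x,
    by rw [hge]; exact hee', hcrit⟩
  refine ⟨C.mu ν, ⟨Config.mu_univ ν hF hG⟩, ⟨_, ?_, Config.mu_bound ν hF hG⟩,
    ⟨C.K, Config.isCompact_K, Config.mu_K ν hF hG⟩, ?_, Config.no_monge hF hG⟩
  · apply ENNReal.mul_ne_top
    · exact ENNReal.inv_ne_top.mpr (nu_hub_ne_zero ν)
    · exact ENNReal.pow_ne_top (by norm_num)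
  · rw [Config.kantorovich_eq hF hG]
    exact Config.val_lt_top hF hG

end Vale.Agent.P121
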