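import Vale.Agent.P121.Pot

/-!
# The measure and the optimal plan
-/

open scoped RealInnerProductSpace ENNReal NNReal
open Metric Set MeasureTheory

namespace Vale.Agent.P121

set_option linter.unusedSectionVars false

variable {E : Type*} [NormedAddCommGroup E] [InnerProductSpace ℝ E] [FiniteDimensional ℝ E]
  [MeasurableSpace E] [BorelSpace E]

lemma push_le (ν : Measure E) [ν.IsAddHaarMeasure] (H : E → E)
    (hH : ∀ x ∈ hub E, ∀ y ∈ hub E, ‖x - y‖ ≤ 1000 * ‖H x - H y‖) (s : Set E) :
    ν (hub E ∩ H ⁻¹' s) ≤ (1000 : ℝ≥0∞) ^ (Module.finrank ℝ E) * ν s := by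
  have key : (Measure.hausdorffMeasure (Module.finrank ℝ E : ℝ) : Measure E) (hub E ∩ H ⁻¹' s) ≤
      (1000 : ℝ≥0∞) ^ (Module.finrank ℝ E) *
        (Measure.hausdorffMeasure (Module.finrank ℝ E : ℝ) : Measure E) s := by
    have inj : InjOn H (hub E) := by
      intro x hx y hy hxy
      have := hH x hx y hy
      rw [hxy, sub_self, norm_zero, mul_zero] at this
      exact sub_eq_zero.mp (norm_le_zero_iff.mp this)
    let L := Function.invFunOn H (hub E)
    have hL : ∀ z ∈ H '' hub E, L z ∈ hub E ∧ H (L z) = z := fun z hz =>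
      ⟨Function.invFunOn_mem hz, Function.invFunOn_eq hz⟩
    have lip : LipschitzOnWith 1000 L (H '' hub E) := by
      refine LipschitzOnWith.of_dist_le_mul fun x hx y hy => ?_
      rw [dist_eq_norm, dist_eq_norm]
      have := hH _ (hL x hx).1 _ (hL y hy).1
      rw [(hL x hx).2, (hL y hy).2] at this
      exact this
    have sub : hub E ∩ H ⁻¹' s ⊆ L '' (s ∩ H '' hub E) := by
      rintro x ⟨hx, hxs⟩
      refine ⟨H x, ⟨hxs, mem_image_of_mem _ hx⟩, ?_⟩
      exact inj (hL _ (mem_image_of_mem _ hx)).1 hx (hL _ (mem_image_of_mem _ hx)).2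
    calc _ ≤ (Measure.hausdorffMeasure (Module.finrank ℝ E : ℝ) : Measure E)
            (L '' (s ∩ H '' hub E)) := measure_mono sub
      _ ≤ ((1000 : ℝ≥0) : ℝ≥0∞) ^ (Module.finrank ℝ E : ℝ) *
            (Measure.hausdorffMeasure (Module.finrank ℝ E : ℝ) : Measure E) (s ∩ H '' hub E) :=
          (lip.mono inter_subset_right).hausdorffMeasure_image_le (by positivity)
      _ ≤ _ := by
          rw [ENNReal.rpow_natCast]
          gcongr
          · norm_num
          · exact inter_subset_left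
  have hν := Measure.isAddLeftInvariant_eq_smul ν
    (Measure.hausdorffMeasure (Module.finrank ℝ E : ℝ) : Measure E)
  rw [hν, Measure.smul_apply, Measure.smul_apply, ENNReal.smul_def, ENNReal.smul_def, smul_eq_mul,
    smul_eq_mul, mul_left_comm]
  gcongr

/-- Normalised Haar measure on the hub. -/
noncomputable def mh (ν : Measure E) : Measure E := (ν (hub E))⁻¹ • ν.restrict (hub E)

lemma nu_hub_ne_zero (ν : Measure E) [ν.IsAddHaarMeasure] : ν (hub E) ≠ 0 := by
  have : 0 < ν (closedBall (0 : E) (1 / 100000000)) :=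
    measure_closedBall_pos ν _ (by norm_num)
  exact this.ne'

lemma nu_hub_ne_top (ν : Measure E) [ν.IsAddHaarMeasure] : ν (hub E) ≠ ⊤ :=
  isCompact_hub.measure_lt_top.ne

lemma mh_univ (ν : Measure E) [ν.IsAddHaarMeasure] : mh ν univ = 1 := by
  rw [mh, Measure.smul_apply, Measure.restrict_apply_univ, smul_eq_mul,
    ENNReal.inv_mul_cancel (nu_hub_ne_zero ν) (nu_hub_ne_top ν)]

lemma mh_compl (ν : Measure E) [ν.IsAddHaarMeasure] : mh ν (hub E)ᶜ = 0 := by
  rw [mh, Measure.smul_apply, Measure.restrict_apply Config.meas_hub.compl]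
  simp

lemma mh_hub (ν : Measure E) [ν.IsAddHaarMeasure] : mh ν (hub E) = 1 := by
  rw [mh, Measure.smul_apply, Measure.restrict_apply_self, smul_eq_mul,
    ENNReal.inv_mul_cancel (nu_hub_ne_zero ν) (nu_hub_ne_top ν)]

lemma ae_hub (ν : Measure E) [ν.IsAddHaarMeasure] : ∀ᵐ x ∂(mh ν), x ∈ hub E := by
  rw [ae_iff]
  exact mh_compl ν

namespace Config

variable (C : Config E)

/-- First component of the second sheet. -/
noncomputable def F' (x : E) : E := C.g (C.F (C.g x))
/-- Second component of the second sheet. -/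
noncomputable def G' (x : E) : E := C.g (C.G (C.g x))

/-- The marginal measure of the counterexample. -/
noncomputable def mu (ν : Measure E) : Measure E :=
  (6 : ℝ≥0∞)⁻¹ • ((mh ν + (mh ν).map C.F + (mh ν).map C.G) +
    (mh ν + (mh ν).map C.F' + (mh ν).map C.G'))

/-- cyclic plan on a sheet -/
noncomputable def cyc (m : Measure E) (F G : E → E) : Measure (E × E × E) :=
  m.map (fun x => (x, F x, G x)) + m.map (fun x => (F x, G x, x)) + m.map (fun x => (G x, x, F x))

/-- The optimal plan. -/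
noncomputable def plan (ν : Measure E) : Measure (E × E × E) :=
  (6 : ℝ≥0∞)⁻¹ • (cyc (mh ν) C.F C.G + cyc (mh ν) C.F' C.G')

variable {C}

lemma measurable_F' (hF : Measurable C.F) : Measurable C.F' :=
  C.g.continuous.measurable.comp (hF.comp C.g.continuous.measurable)

lemma measurable_G' (hG : Measurable C.G) : Measurable C.G' :=
  C.g.continuous.measurable.comp (hG.comp C.g.continuous.measurable)

lemma cyc_fst (m : Measure E) {F G : E → E} (hF : Measurable F) (hG : Measurable G) :
    (cyc m F G).map (fun p => p.1) = m + m.map F + m.map G := by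
  rw [cyc, Measure.map_add _ _ (by fun_prop), Measure.map_add _ _ (by fun_prop),
    Measure.map_map (by fun_prop) (by fun_prop), Measure.map_map (by fun_prop) (by fun_prop),
    Measure.map_map (by fun_prop) (by fun_prop)]
  congr 1
  congr 1
  exact Measure.map_id

lemma cyc_snd (m : Measure E) {F G : E → E} (hF : Measurable F) (hG : Measurable G) :
    (cyc m F G).map (fun p => p.2.1) = m + m.map F + m.map G := by
  rw [cyc, Measure.map_add _ _ (by fun_prop), Measure.map_add _ _ (by fun_prop),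
    Measure.map_map (by fun_prop) (by fun_prop), Measure.map_map (by fun_prop) (by fun_prop),
    Measure.map_map (by fun_prop) (by fun_prop)]
  have : Measure.map ((fun p : E × E × E => p.2.1) ∘ fun x => (G x, x, F x)) m = m :=
    Measure.map_id
  rw [this, add_comm, ← add_assoc]
  rfl

lemma cyc_trd (m : Measure E) {F G : E → E} (hF : Measurable F) (hG : Measurable G) :
    (cyc m F G).map (fun p => p.2.2) = m + m.map F + m.map G := by
  rw [cyc, Measure.map_add _ _ (by fun_prop), Measure.map_add _ _ (by fun_prop),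
    Measure.map_map (by fun_prop) (by fun_prop), Measure.map_map (by fun_prop) (by fun_prop),
    Measure.map_map (by fun_prop) (by fun_prop)]
  have : Measure.map ((fun p : E × E × E => p.2.2) ∘ fun x => (F x, G x, x)) m = m :=
    Measure.map_id
  rw [this, add_assoc, add_comm]
  rfl

lemma plan_coupling (ν : Measure E) (hF : Measurable C.F) (hG : Measurable C.G) :
    IsCoupling (C.mu ν) (C.plan ν) := by
  refine ⟨?_, ?_, ?_⟩
  · rw [plan, Measure.map_smul, Measure.map_add _ _ (by fun_prop), cyc_fst _ hF hG,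
      cyc_fst _ (measurable_F' hF) (measurable_G' hG), mu]
  · rw [plan, Measure.map_smul, Measure.map_add _ _ (by fun_prop), cyc_snd _ hF hG,
      cyc_snd _ (measurable_F' hF) (measurable_G' hG), mu]
  · rw [plan, Measure.map_smul, Measure.map_add _ _ (by fun_prop), cyc_trd _ hF hG,
      cyc_trd _ (measurable_F' hF) (measurable_G' hG), mu]

lemma mu_apply (ν : Measure E) (hF : Measurable C.F) (hG : Measurable C.G) {s : Set E}
    (hs : MeasurableSet s) :
    C.mu ν s = 6⁻¹ * ((mh ν s + mh ν (C.F ⁻¹' s) + mh ν (C.G ⁻¹' s)) +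
      (mh ν s + mh ν (C.F' ⁻¹' s) + mh ν (C.G' ⁻¹' s))) := by
  rw [mu, Measure.smul_apply, Measure.add_apply, Measure.add_apply, Measure.add_apply,
    Measure.add_apply, Measure.add_apply, Measure.map_apply hF hs, Measure.map_apply hG hs,
    Measure.map_apply (measurable_F' hF) hs, Measure.map_apply (measurable_G' hG) hs, smul_eq_mul]

lemma six_inv_mul : (6 : ℝ≥0∞)⁻¹ * 6 = 1 := ENNReal.inv_mul_cancel (by norm_num) (by norm_num)

lemma mu_univ (ν : Measure E) [ν.IsAddHaarMeasure] (hF : Measurable C.F) (hG : Measurable C.G) :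
    C.mu ν univ = 1 := by
  rw [mu_apply ν hF hG MeasurableSet.univ]
  simp only [preimage_univ, mh_univ]
  norm_num
  exact six_inv_mul

lemma mu_bound (ν : Measure E) [ν.IsAddHaarMeasure] (hF : Measurable C.F) (hG : Measurable C.G) :
    C.mu ν ≤ ((ν (hub E))⁻¹ * (1000 : ℝ≥0∞) ^ (Module.finrank ℝ E)) • ν := by
  rw [Measure.le_iff]
  intro s hs
  have one_le : (1 : ℝ≥0∞) ≤ (1000 : ℝ≥0∞) ^ (Module.finrank ℝ E) := one_le_pow₀ (by norm_num)
  have key : ∀ H : E → E, Measurable H →
      (∀ x ∈ hub E, ∀ y ∈ hub E, ‖x - y‖ ≤ 1000 * ‖H x - H y‖) →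
      mh ν (H ⁻¹' s) ≤ ((ν (hub E))⁻¹ * (1000 : ℝ≥0∞) ^ (Module.finrank ℝ E)) * ν s := by
    intro H hm hH
    rw [mh, Measure.smul_apply, Measure.restrict_apply (hm hs), smul_eq_mul, mul_assoc,
      inter_comm]
    gcongr
    exact push_le ν H hH s
  have k0 : mh ν s ≤ ((ν (hub E))⁻¹ * (1000 : ℝ≥0∞) ^ (Module.finrank ℝ E)) * ν s := by
    refine key (fun x => x) measurable_id ?_
    intro x _ y _
    have := norm_nonneg (x - y)
    linarith
  have k1 := key C.F hF fun x hx y hy => (C.crit x hx).x_le_y C.he (C.crit y hy)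
  have k2 := key C.G hG fun x hx y hy => by
    have := (C.crit x hx).x_le_z C.he (C.crit y hy)
    have := norm_nonneg (C.G x - C.G y)
    linarith
  have k3 := key C.F' (measurable_F' hF) fun x hx y hy => by
    have := (C.crit _ (hub_map C.g hx)).x_le_y C.he (C.crit _ (hub_map C.g hy))
    rw [← map_sub, C.g.norm_map] at this
    rw [F', F', ← map_sub, C.g.norm_map]
    exact this
  have k4 := key C.G' (measurable_G' hG) fun x hx y hy => by
    have := (C.crit _ (hub_map C.g hx)).x_le_z C.he (C.crit _ (hub_map C.g hy))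
    rw [← map_sub, C.g.norm_map] at this
    rw [G', G', ← map_sub, C.g.norm_map]
    have := norm_nonneg (C.G (C.g x) - C.G (C.g y))
    linarith
  rw [mu_apply ν hF hG hs, Measure.smul_apply, smul_eq_mul]
  set D := ((ν (hub E))⁻¹ * (1000 : ℝ≥0∞) ^ (Module.finrank ℝ E)) * ν s with hD
  calc _ ≤ 6⁻¹ * ((D + D + D) + (D + D + D)) := by gcongr
    _ = (6⁻¹ * 6) * D := by ring
    _ = D := by rw [six_inv_mul, one_mul]

lemma mu_K (ν : Measure E) [ν.IsAddHaarMeasure] (hF : Measurable C.F) (hG : Measurable C.G) :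
    C.mu ν C.Kᶜ = 0 := by
  rw [mu_apply ν hF hG measurableSet_K.compl]
  have key : ∀ H : E → E, (∀ x ∈ hub E, H x ∈ C.K) → mh ν (H ⁻¹' C.Kᶜ) = 0 := by
    intro H hH
    refine measure_mono_null ?_ (mh_compl ν)
    intro x hx hx'
    exact hx (hH x hx')
  rw [key C.F fun x hx => Or.inr (Or.inl ⟨x, hx, rfl⟩),
    key C.G fun x hx => Or.inr (Or.inr (Or.inl ⟨x, hx, rfl⟩)),
    key C.F' fun x hx => Or.inr (Or.inr (Or.inr (Or.inl ⟨_, hub_map C.g hx, rfl⟩))),
    key C.G' fun x hx => Or.inr (Or.inr (Or.inr (Or.inr ⟨_, hub_map C.g hx, rfl⟩)))]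
  have := key (fun x => x) fun x hx => Or.inl hx
  simp only [preimage_id'] at this
  rw [this]
  simp

lemma ae_K (ν : Measure E) [ν.IsAddHaarMeasure] (hF : Measurable C.F) (hG : Measurable C.G) :
    ∀ᵐ x ∂(C.mu ν), x ∈ C.K := by
  rw [ae_iff]
  exact mu_K ν hF hG

end Config

end Vale.Agent.P121
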