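import Vale.Agent.P121.Sheet

/-!
# Local optimality of the contact sheet
-/

open scoped RealInnerProductSpace
open Metric Set

namespace Vale.Agent.P121

variable {E : Type*} [NormedAddCommGroup E] [InnerProductSpace ℝ E]

/-- Real valued cost (meaningful for distinct points). -/
noncomputable def cr (x y z : E) : ℝ := ‖x - y‖⁻¹ + ‖x - z‖⁻¹ + ‖y - z‖⁻¹

/-- potential on the hub -/
noncomputable def Uh (x : E) : ℝ := 3 / 2 - 5000 * ‖x‖ ^ 2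

/-- potential on the first satellite -/
noncomputable def Us (e y : E) : ℝ := 1 / 2 - 5000 * ‖y - e‖ ^ 2

lemma inv_cube_le {a : ℝ} (ha : 9 / 10 ≤ a) : (a ^ 3)⁻¹ ≤ 2 := by
  rw [inv_le_comm₀ (by positivity) (by norm_num)]
  have : (9 / 10 : ℝ) ^ 3 ≤ a ^ 3 := by gcongr
  linarith

lemma local_opt {e b y₀ z₀ x y : E} (he : ‖e‖ = 1) (h : Crit e b y₀ z₀) (hxy : x ≠ y)
    (hxz : x ≠ z₀) (hyz : y ≠ z₀) :
    cr b y₀ z₀ - Uh b - Us e y₀ + 4000 * (‖x - b‖ ^ 2 + ‖y - y₀‖ ^ 2) ≤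
      cr x y z₀ - Uh x - Us e y := by
  have n1 := (norm_xy he h.hx h.hy).1
  have n2 := (norm_xz_of he h.hx h.hz).1
  have n3 := (norm_yz_of he h.hy h.hz).1
  have ne1 : b - y₀ ≠ 0 := norm_pos_iff.mp (by linarith)
  have ne2 : b - z₀ ≠ 0 := norm_pos_iff.mp (by linarith)
  have ne3 : y₀ - z₀ ≠ 0 := norm_pos_iff.mp (by linarith)
  have i1 := inv_norm_lower (x - y) (b - y₀) (sub_ne_zero.mpr hxy) ne1
  have i2 := inv_norm_lower (x - z₀) (b - z₀) (sub_ne_zero.mpr hxz) ne2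
  have i3 := inv_norm_lower (y - z₀) (y₀ - z₀) (sub_ne_zero.mpr hyz) ne3
  have c1 := inv_cube_le (a := ‖b - y₀‖) (by linarith)
  have c2 := inv_cube_le (a := ‖b - z₀‖) (by linarith)
  have c3 := inv_cube_le (a := ‖y₀ - z₀‖) (by linarith)
  set dx := x - b with hdx
  set dy := y - y₀ with hdy
  have s1 : x - y - (b - y₀) = dx - dy := by rw [hdx, hdy]; abel
  have s2 : x - z₀ - (b - z₀) = dx := by rw [hdx]; abel
  have s3 : y - z₀ - (y₀ - z₀) = dy := by rw [hdy]; abel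
  rw [s1] at i1
  rw [s2] at i2
  rw [s3] at i3
  have q1 : ‖dx - dy‖ ^ 2 ≤ 2 * (‖dx‖ ^ 2 + ‖dy‖ ^ 2) := by
    have := parallelogram_law_with_norm ℝ dx dy
    nlinarith [norm_nonneg (dx + dy), sq_nonneg ‖dx + dy‖]
  have lin : ⟪kf (b - y₀), dx - dy⟫ + ⟪kf (b - z₀), dx⟫ + ⟪kf (y₀ - z₀), dy⟫
      = -(10000 * ⟪b, dx⟫) - 10000 * ⟪y₀ - e, dy⟫ := by
    have a : kf (b - y₀) + kf (b - z₀) = -((10000 : ℝ) • b) := eq_neg_of_add_eq_zero_left h.eq1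
    have a' : kf (y₀ - b) + kf (y₀ - z₀) = -((10000 : ℝ) • (y₀ - e)) :=
      eq_neg_of_add_eq_zero_left h.eq2
    have b1 : ⟪kf (b - y₀) + kf (b - z₀), dx⟫ = -(10000 * ⟪b, dx⟫) := by
      rw [a, inner_neg_left, real_inner_smul_left]
    have b2 : ⟪kf (y₀ - b) + kf (y₀ - z₀), dy⟫ = -(10000 * ⟪y₀ - e, dy⟫) := by
      rw [a', inner_neg_left, real_inner_smul_left]
    rw [inner_add_left] at b1 b2
    rw [kf_sub_comm y₀ b, inner_neg_left] at b2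
    rw [inner_sub_right]
    linarith
  have u1 : ‖x‖ ^ 2 = ‖b‖ ^ 2 + 2 * ⟪b, dx⟫ + ‖dx‖ ^ 2 := by
    have := norm_add_sq_real b dx
    rwa [hdx, add_sub_cancel] at this
  have u2 : ‖y - e‖ ^ 2 = ‖y₀ - e‖ ^ 2 + 2 * ⟪y₀ - e, dy⟫ + ‖dy‖ ^ 2 := by
    have := norm_add_sq_real (y₀ - e) dy
    have e1 : y₀ - e + dy = y - e := by rw [hdy]; abel
    rwa [e1] at this
  have p1 : (‖b - y₀‖ ^ 3)⁻¹ / 2 * ‖dx - dy‖ ^ 2 ≤ 2 * (‖dx‖ ^ 2 + ‖dy‖ ^ 2) := by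
    have : (‖b - y₀‖ ^ 3)⁻¹ / 2 ≤ 1 := by linarith
    have h0 : 0 ≤ ‖dx - dy‖ ^ 2 := by positivity
    calc (‖b - y₀‖ ^ 3)⁻¹ / 2 * ‖dx - dy‖ ^ 2 ≤ 1 * ‖dx - dy‖ ^ 2 := by gcongr
      _ ≤ _ := by linarith
  have p2 : (‖b - z₀‖ ^ 3)⁻¹ / 2 * ‖dx‖ ^ 2 ≤ ‖dx‖ ^ 2 := by
    have : (‖b - z₀‖ ^ 3)⁻¹ / 2 ≤ 1 := by linarith
    calc (‖b - z₀‖ ^ 3)⁻¹ / 2 * ‖dx‖ ^ 2 ≤ 1 * ‖dx‖ ^ 2 := by gcongr
      _ ≤ _ := by linarith
  have p3 : (‖y₀ - z₀‖ ^ 3)⁻¹ / 2 * ‖dy‖ ^ 2 ≤ ‖dy‖ ^ 2 := by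
    have : (‖y₀ - z₀‖ ^ 3)⁻¹ / 2 ≤ 1 := by linarith
    calc (‖y₀ - z₀‖ ^ 3)⁻¹ / 2 * ‖dy‖ ^ 2 ≤ 1 * ‖dy‖ ^ 2 := by gcongr
      _ ≤ _ := by linarith
  have hx2 : 0 ≤ ‖dx‖ ^ 2 := by positivity
  have hy2 : 0 ≤ ‖dy‖ ^ 2 := by positivity
  rw [cr, cr, Uh, Uh, Us, Us, u1, u2]
  linarith

/-- The value of the third potential. -/
noncomputable def Ut (e b y z : E) : ℝ := cr b y z - Uh b - Us e y

lemma Crit.Ut_bounds {e b y z : E} (he : ‖e‖ = 1) (h : Crit e b y z) :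
    48 / 100 ≤ Ut e b y z ∧ Ut e b y z ≤ 52 / 100 := by
  obtain ⟨n1, n1'⟩ := (norm_xy he h.hx h.hy)
  obtain ⟨n2, n2'⟩ := (norm_xz_of he h.hx h.hz)
  obtain ⟨n3, n3'⟩ := (norm_yz_of he h.hy h.hz)
  have a1 : ‖b - y‖⁻¹ ≤ 1002 / 1000 := by
    rw [inv_le_comm₀ (by linarith) (by norm_num)]; exact le_trans (by norm_num) n1
  have a2 : ‖b - z‖⁻¹ ≤ 1011 / 1000 := by
    rw [inv_le_comm₀ (by linarith) (by norm_num)]; exact le_trans (by norm_num) n2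
  have a3 : ‖y - z‖⁻¹ ≤ 503 / 1000 := by
    rw [inv_le_comm₀ (by linarith) (by norm_num)]; exact le_trans (by norm_num) n3
  have b1 : 998 / 1000 ≤ ‖b - y‖⁻¹ := by
    rw [le_inv_comm₀ (by norm_num) (by linarith)]; exact le_trans n1' (by norm_num)
  have b2 : 99 / 100 ≤ ‖b - z‖⁻¹ := by
    rw [le_inv_comm₀ (by norm_num) (by linarith)]; exact le_trans n2' (by norm_num)
  have b3 : 497 / 1000 ≤ ‖y - z‖⁻¹ := by
    rw [le_inv_comm₀ (by norm_num) (by linarith)]; exact le_trans n3' (by norm_num)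
  have c1 : 0 ≤ ‖b‖ ^ 2 := by positivity
  have c2 : 0 ≤ ‖y - e‖ ^ 2 := by positivity
  have d1 : ‖b‖ ^ 2 ≤ (1 / 100000000) ^ 2 := by gcongr; exact h.hx
  have d2 : ‖y - e‖ ^ 2 ≤ (1 / 3000) ^ 2 := by gcongr; exact h.hy
  rw [Ut, cr, Uh, Us]
  constructor <;> linarith

lemma kf_isometry (g : E ≃ₗᵢ[ℝ] E) (v : E) : kf (g v) = g (kf v) := by
  simp [kf]

lemma Crit.map {e b y z : E} (g : E ≃ₗᵢ[ℝ] E) (h : Crit e b y z) :
    Crit (g e) (g b) (g y) (g z) := by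
  refine ⟨?_, ?_, ?_, ?_, ?_⟩
  · rw [g.norm_map]; exact h.hx
  · rw [← map_sub, g.norm_map]; exact h.hy
  · rw [← map_add, g.norm_map]; exact h.hz
  · rw [← map_sub, ← map_sub, kf_isometry, kf_isometry, ← map_smul, ← map_add, ← map_add,
      h.eq1, map_zero]
  · rw [← map_sub, ← map_sub, ← map_sub, kf_isometry, kf_isometry, ← map_smul, ← map_add,
      ← map_add, h.eq2, map_zero]

lemma cr_map (g : E ≃ₗᵢ[ℝ] E) (x y z : E) : cr (g x) (g y) (g z) = cr x y z := by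
  simp only [cr, ← map_sub, g.norm_map]

lemma Uh_map (g : E ≃ₗᵢ[ℝ] E) (x : E) : Uh (g x) = Uh x := by
  simp only [Uh, g.norm_map]

lemma Us_map (g : E ≃ₗᵢ[ℝ] E) (e y : E) : Us (g e) (g y) = Us e y := by
  simp only [Us, ← map_sub, g.norm_map]

lemma Ut_map (g : E ≃ₗᵢ[ℝ] E) (e b y z : E) : Ut (g e) (g b) (g y) (g z) = Ut e b y z := by
  simp only [Ut, cr_map, Uh_map, Us_map]

end Vale.Agent.P121
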