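import Vale.Agent.P121.Config

/-!
# Existence of the configuration and of a measurable potential
-/

open scoped RealInnerProductSpace ENNReal NNReal
open Metric Set MeasureTheory

namespace Vale.Agent.P121

set_option linter.unusedSectionVars false

variable {E : Type*} [NormedAddCommGroup E] [InnerProductSpace ℝ E] [FiniteDimensional ℝ E]
  [MeasurableSpace E] [BorelSpace E]

lemma measurable_indicator_of_continuousOn {β : Type*} [TopologicalSpace β] [MeasurableSpace β]
    [BorelSpace β] [Zero β] {f : E → β} {s : Set E}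
    (hf : ContinuousOn f s) (hs : MeasurableSet s) : Measurable (s.indicator f) := by
  classical
  have := ContinuousOn.measurable_piecewise (g := fun _ : E => (0 : β)) hf continuousOn_const hs
  have e : s.piecewise f (fun _ => (0 : β)) = s.indicator f := by
    ext x
    by_cases hx : x ∈ s <;> simp [hx]
  rwa [e] at this

lemma isCompact_hub : IsCompact (hub E) := isCompact_closedBall _ _

lemma exists_FG (e : E) (he : ‖e‖ = 1) : ∃ F G : E → E, Measurable F ∧ Measurable G ∧
    ∀ x ∈ hub E, Crit e x (F x) (G x) := by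
  have H : ∀ x, ∃ y z, x ∈ hub E → Crit e x y z := by
    intro x
    by_cases hx : x ∈ hub E
    · obtain ⟨y, z, h⟩ := exists_crit he (mem_hub.mp hx)
      exact ⟨y, z, fun _ => h⟩
    · exact ⟨0, 0, fun h => absurd h hx⟩
  choose F₀ G₀ h using H
  have hm : MeasurableSet (hub E) := isCompact_hub.isClosed.measurableSet
  have cF : ContinuousOn F₀ (hub E) := by
    have : LipschitzOnWith 10 F₀ (hub E) := by
      refine LipschitzOnWith.of_dist_le_mul fun x hx y hy => ?_
      rw [dist_eq_norm, dist_eq_norm]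
      exact (h x hx).y_le he (h y hy)
    exact this.continuousOn
  have cG : ContinuousOn G₀ (hub E) := by
    have : LipschitzOnWith 30000 G₀ (hub E) := by
      refine LipschitzOnWith.of_dist_le_mul fun x hx y hy => ?_
      rw [dist_eq_norm, dist_eq_norm]
      exact (h x hx).z_le he (h y hy)
    exact this.continuousOn
  refine ⟨(hub E).indicator F₀, (hub E).indicator G₀, measurable_indicator_of_continuousOn cF hm,
    measurable_indicator_of_continuousOn cG hm, ?_⟩
  intro x hx
  rw [indicator_of_mem hx, indicator_of_mem hx]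
  exact h x hx

namespace Config

variable {C : Config E}

lemma contF : ContinuousOn C.F (hub E) := by
  have : LipschitzOnWith 10 C.F (hub E) := by
    refine LipschitzOnWith.of_dist_le_mul fun x hx y hy => ?_
    rw [dist_eq_norm, dist_eq_norm]
    exact (C.crit x hx).y_le C.he (C.crit y hy)
  exact this.continuousOn

lemma contG : ContinuousOn C.G (hub E) := by
  have : LipschitzOnWith 30000 C.G (hub E) := by
    refine LipschitzOnWith.of_dist_le_mul fun x hx y hy => ?_
    rw [dist_eq_norm, dist_eq_norm]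
    exact (C.crit x hx).z_le C.he (C.crit y hy)
  exact this.continuousOn

lemma injF : InjOn C.F (hub E) := by
  intro x hx y hy hxy
  have := (C.crit x hx).x_le_y C.he (C.crit y hy)
  rw [hxy, sub_self, norm_zero, mul_zero] at this
  exact sub_eq_zero.mp (norm_le_zero_iff.mp this)

lemma injG : InjOn C.G (hub E) := by
  intro x hx y hy hxy
  have := (C.crit x hx).x_le_z C.he (C.crit y hy)
  rw [hxy, sub_self, norm_zero] at this
  exact sub_eq_zero.mp (norm_le_zero_iff.mp this)

/-- The centers are far apart. -/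
lemma centers_far {p q x : E} (hp : ‖x - p‖ ≤ 1 / 400) (hq : ‖x - q‖ ≤ 1 / 400)
    (hpq : 1 ≤ ‖p - q‖ ^ 2) : False := by
  have h1 : ‖p - q‖ ≤ 1 / 200 := by
    have : p - q = (x - q) - (x - p) := by abel
    rw [this]
    have := norm_sub_le (x - q) (x - p)
    linarith
  have h2 : 0 ≤ ‖p - q‖ := norm_nonneg _
  nlinarith

lemma near_hub {b : E} (hb : b ∈ hub E) : ‖b - 0‖ ≤ 1 / 400 := by
  rw [sub_zero]; exact (mem_hub.mp hb).trans (by norm_num)

lemma near_F {b : E} (hb : b ∈ hub E) : ‖C.F b - C.e‖ ≤ 1 / 400 :=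
  (C.crit b hb).hy.trans (by norm_num)

lemma near_G {b : E} (hb : b ∈ hub E) : ‖C.G b - (-C.e)‖ ≤ 1 / 400 := by
  rw [sub_neg_eq_add]; exact (C.crit b hb).hz

lemma near_gF {b : E} (hb : b ∈ hub E) : ‖C.g (C.F b) - C.g C.e‖ ≤ 1 / 400 := by
  rw [← map_sub, C.g.norm_map]; exact near_F hb

lemma near_gG {b : E} (hb : b ∈ hub E) : ‖C.g (C.G b) - (-C.g C.e)‖ ≤ 1 / 400 := by
  rw [← map_neg, ← map_sub, C.g.norm_map]; exact near_G hb

lemma far1 : 1 ≤ ‖(0 : E) - C.e‖ ^ 2 := by rw [zero_sub, norm_neg, C.he]; norm_num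
lemma far2 : 1 ≤ ‖(0 : E) - (-C.e)‖ ^ 2 := by rw [zero_sub, norm_neg, norm_neg, C.he]; norm_num
lemma far3 : 1 ≤ ‖(0 : E) - C.g C.e‖ ^ 2 := by
  rw [zero_sub, norm_neg, C.g.norm_map, C.he]; norm_num
lemma far4 : 1 ≤ ‖(0 : E) - (-C.g C.e)‖ ^ 2 := by
  rw [zero_sub, norm_neg, norm_neg, C.g.norm_map, C.he]; norm_num
lemma far5 : 1 ≤ ‖C.e - (-C.e)‖ ^ 2 := by
  rw [sub_neg_eq_add, ← two_smul ℝ, norm_smul, C.he]; norm_num
lemma far6 : 1 ≤ ‖C.e - C.g C.e‖ ^ 2 := by rw [norm_e_sub_ge]; norm_num
lemma far7 : 1 ≤ ‖C.e - (-C.g C.e)‖ ^ 2 := by rw [sub_neg_eq_add, norm_e_add_ge]; norm_num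
lemma far8 : 1 ≤ ‖-C.e - C.g C.e‖ ^ 2 := by
  rw [show -C.e - C.g C.e = -(C.e + C.g C.e) by abel, norm_neg, norm_e_add_ge]; norm_num
lemma far9 : 1 ≤ ‖-C.e - (-C.g C.e)‖ ^ 2 := by
  rw [show -C.e - -C.g C.e = -(C.e - C.g C.e) by abel, norm_neg, norm_e_sub_ge]; norm_num
lemma far10 : 1 ≤ ‖C.g C.e - (-C.g C.e)‖ ^ 2 := by
  rw [sub_neg_eq_add, ← two_smul ℝ, norm_smul, C.g.norm_map, C.he]; norm_num

/-- inverse of `G` on its range -/
noncomputable def Gi (C : Config E) : E → E := Function.invFunOn C.G (hub E)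

lemma Gi_mem {z : E} (hz : z ∈ C.G '' hub E) : C.Gi z ∈ hub E := Function.invFunOn_mem hz

lemma G_Gi {z : E} (hz : z ∈ C.G '' hub E) : C.G (C.Gi z) = z := Function.invFunOn_eq hz

lemma Gi_G {b : E} (hb : b ∈ hub E) : C.Gi (C.G b) = b :=
  injG (Gi_mem (mem_image_of_mem _ hb)) hb (G_Gi (mem_image_of_mem _ hb))

lemma cont_Gi : ContinuousOn C.Gi (C.G '' hub E) := by
  have : LipschitzOnWith 1 C.Gi (C.G '' hub E) := by
    refine LipschitzOnWith.of_dist_le_mul fun x hx y hy => ?_
    rw [dist_eq_norm, dist_eq_norm]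
    have := (C.crit _ (Gi_mem hx)).x_le_z C.he (C.crit _ (Gi_mem hy))
    rw [G_Gi hx, G_Gi hy] at this
    simpa using this
  exact this.continuousOn

/-- third potential as a function of `z` -/
noncomputable def U3 (C : Config E) (z : E) : ℝ := Ut C.e (C.Gi z) (C.F (C.Gi z)) z

lemma cont_U3 : ContinuousOn C.U3 (C.G '' hub E) := by
  have c1 : ContinuousOn C.Gi (C.G '' hub E) := cont_Gi
  have c2 : ContinuousOn (fun z => C.F (C.Gi z)) (C.G '' hub E) :=
    contF.comp c1 (fun z hz => Gi_mem hz)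
  unfold U3 Ut cr Uh Us
  have ne : ∀ z ∈ C.G '' hub E, ‖C.Gi z - C.F (C.Gi z)‖ ≠ 0 ∧ ‖C.Gi z - z‖ ≠ 0 ∧
      ‖C.F (C.Gi z) - z‖ ≠ 0 := by
    intro z hz
    have h := C.crit _ (Gi_mem hz)
    rw [G_Gi hz] at h
    have n1 := (norm_xy C.he h.hx h.hy).1
    have n2 := (norm_xz_of C.he h.hx h.hz).1
    have n3 := (norm_yz_of C.he h.hy h.hz).1
    refine ⟨?_, ?_, ?_⟩ <;> intro h0 <;> linarith
  refine ContinuousOn.sub (ContinuousOn.sub (ContinuousOn.add (ContinuousOn.add
    (ContinuousOn.inv₀ (c1.sub c2).norm fun z hz => (ne z hz).1)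
    (ContinuousOn.inv₀ (c1.sub continuousOn_id).norm fun z hz => (ne z hz).2.1))
    (ContinuousOn.inv₀ (c2.sub continuousOn_id).norm fun z hz => (ne z hz).2.2)) ?_) ?_
  · exact continuousOn_const.sub (continuousOn_const.mul (c1.norm.pow 2))
  · exact continuousOn_const.sub (continuousOn_const.mul ((c2.sub continuousOn_const).norm.pow 2))

/-- A measurable potential. -/
noncomputable def pot (C : Config E) (x : E) : ℝ :=
  (hub E).indicator Uh x + (C.F '' hub E).indicator (Us C.e) x + (C.G '' hub E).indicator C.U3 x +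
  (C.F '' hub E).indicator (Us C.e) (C.g x) + (C.G '' hub E).indicator C.U3 (C.g x)

lemma meas_hub : MeasurableSet (hub E) := isCompact_hub.isClosed.measurableSet

lemma meas_F : MeasurableSet (C.F '' hub E) :=
  (isCompact_hub.image_of_continuousOn contF).isClosed.measurableSet

lemma meas_G : MeasurableSet (C.G '' hub E) :=
  (isCompact_hub.image_of_continuousOn contG).isClosed.measurableSet

lemma measurable_pot : Measurable C.pot := by
  have hg : Measurable C.g := C.g.continuous.measurable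
  have m1 : Measurable ((hub E).indicator (Uh : E → ℝ)) := by
    apply measurable_indicator_of_continuousOn _ meas_hub
    unfold Uh
    fun_prop
  have m2 : Measurable ((C.F '' hub E).indicator (Us C.e)) := by
    apply measurable_indicator_of_continuousOn _ meas_F
    unfold Us
    fun_prop
  have m3 : Measurable ((C.G '' hub E).indicator C.U3) :=
    measurable_indicator_of_continuousOn cont_U3 meas_G
  exact (((m1.add m2).add m3).add (m2.comp hg)).add (m3.comp hg)

lemma notMem_hub {x p : E} (hx : ‖x - p‖ ≤ 1 / 400) (hp : 1 ≤ ‖(0 : E) - p‖ ^ 2) : x ∉ hub E :=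
  fun h => centers_far (near_hub h) hx hp

lemma notMem_F {x p : E} (hx : ‖x - p‖ ≤ 1 / 400) (hp : 1 ≤ ‖C.e - p‖ ^ 2) :
    x ∉ C.F '' hub E := by
  rintro ⟨b, hb, rfl⟩
  exact centers_far (near_F hb) hx hp

lemma notMem_G {x p : E} (hx : ‖x - p‖ ≤ 1 / 400) (hp : 1 ≤ ‖-C.e - p‖ ^ 2) :
    x ∉ C.G '' hub E := by
  rintro ⟨b, hb, rfl⟩
  exact centers_far (near_G hb) hx hp

lemma norm_sub_sq_comm (p q : E) : ‖p - q‖ ^ 2 = ‖q - p‖ ^ 2 := by rw [norm_sub_rev]

lemma isPot : C.IsPot C.pot := by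
  refine ⟨?_, ?_, ?_, ?_, ?_⟩
  · intro b hb
    have hgb := hub_map C.g hb
    rw [pot, indicator_of_mem hb, indicator_of_notMem, indicator_of_notMem, indicator_of_notMem,
      indicator_of_notMem]
    · ring
    · exact notMem_G (near_hub hgb) (by rw [norm_sub_sq_comm]; exact far2)
    · exact notMem_F (near_hub hgb) (by rw [norm_sub_sq_comm]; exact far1)
    · exact notMem_G (near_hub hb) (by rw [norm_sub_sq_comm]; exact far2)
    · exact notMem_F (near_hub hb) (by rw [norm_sub_sq_comm]; exact far1)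
  · intro b hb
    rw [pot, indicator_of_notMem (notMem_hub (near_F hb) far1),
      indicator_of_mem (mem_image_of_mem _ hb),
      indicator_of_notMem (notMem_G (near_F hb) (by rw [norm_sub_sq_comm]; exact far5)),
      indicator_of_notMem (notMem_F (near_gF hb) far6),
      indicator_of_notMem (notMem_G (near_gF hb) far8)]
    ring
  · intro b hb
    rw [pot, indicator_of_notMem (notMem_hub (near_G hb) far2),
      indicator_of_notMem (notMem_F (near_G hb) far5),
      indicator_of_mem (mem_image_of_mem _ hb),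
      indicator_of_notMem (notMem_F (near_gG hb) far7),
      indicator_of_notMem (notMem_G (near_gG hb) far9), U3, Gi_G hb]
    ring
  · intro b hb
    rw [pot, C.hgg, indicator_of_notMem (notMem_hub (near_gF hb) far3),
      indicator_of_notMem (notMem_F (near_gF hb) far6),
      indicator_of_notMem (notMem_G (near_gF hb) far8),
      indicator_of_mem (mem_image_of_mem _ hb),
      indicator_of_notMem (notMem_G (near_F hb) (by rw [norm_sub_sq_comm]; exact far5))]
    ring
  · intro b hb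
    rw [pot, C.hgg, indicator_of_notMem (notMem_hub (near_gG hb) far4),
      indicator_of_notMem (notMem_F (near_gG hb) far7),
      indicator_of_notMem (notMem_G (near_gG hb) far9),
      indicator_of_notMem (notMem_F (near_G hb) far5),
      indicator_of_mem (mem_image_of_mem _ hb), U3, Gi_G hb]
    ring

lemma K_eq : C.K = hub E ∪ (C.F '' hub E ∪ (C.G '' hub E ∪
    (C.g '' (C.F '' hub E) ∪ C.g '' (C.G '' hub E)))) := by
  ext x
  simp only [K, mem_ofPred_eq, mem_union, mem_image, exists_exists_and_eq_and]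
  constructor
  · rintro (h | ⟨b, hb, rfl⟩ | ⟨b, hb, rfl⟩ | ⟨b, hb, rfl⟩ | ⟨b, hb, rfl⟩)
    · exact Or.inl h
    · exact Or.inr (Or.inl ⟨b, hb, rfl⟩)
    · exact Or.inr (Or.inr (Or.inl ⟨b, hb, rfl⟩))
    · exact Or.inr (Or.inr (Or.inr (Or.inl ⟨b, hb, rfl⟩)))
    · exact Or.inr (Or.inr (Or.inr (Or.inr ⟨b, hb, rfl⟩)))
  · rintro (h | ⟨b, hb, rfl⟩ | ⟨b, hb, rfl⟩ | ⟨b, hb, rfl⟩ | ⟨b, hb, rfl⟩)
    · exact Or.inl h
    · exact Or.inr (Or.inl ⟨b, hb, rfl⟩)
    · exact Or.inr (Or.inr (Or.inl ⟨b, hb, rfl⟩))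
    · exact Or.inr (Or.inr (Or.inr (Or.inl ⟨b, hb, rfl⟩)))
    · exact Or.inr (Or.inr (Or.inr (Or.inr ⟨b, hb, rfl⟩)))

lemma isCompact_K : IsCompact C.K := by
  rw [K_eq]
  have h1 := isCompact_hub.image_of_continuousOn (contF (C := C))
  have h2 := isCompact_hub.image_of_continuousOn (contG (C := C))
  exact isCompact_hub.union (h1.union (h2.union
    ((h1.image C.g.continuous).union (h2.image C.g.continuous))))

lemma measurableSet_K : MeasurableSet C.K := isCompact_K.isClosed.measurableSet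

end Config

end Vale.Agent.P121
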