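import Vale.Agent.P121.Analysis

/-!
# The contact sheet
-/

open scoped RealInnerProductSpace
open Metric Set

namespace Vale.Agent.P121

variable {E : Type*} [NormedAddCommGroup E] [InnerProductSpace ℝ E]

lemma kf_lip (v w : E) (hv : 9 / 10 ≤ ‖v‖) (hw : 9 / 10 ≤ ‖w‖) :
    ‖kf v - kf w‖ ≤ 3 * ‖v - w‖ := by
  refine (kf_sub_le v w (by norm_num) hv hw).trans ?_
  gcongr
  norm_num

lemma Jf_lip (v w : E) (hv : 9 / 10 ≤ ‖v‖) (hw : 9 / 10 ≤ ‖w‖) :
    ‖Jf v - Jf w‖ ≤ 2 * ‖v - w‖ := by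
  refine (Jf_sub_le (m := 94 / 100) v w (by norm_num) (le_trans (by norm_num) hv)
    (le_trans (by norm_num) hw)).trans ?_
  gcongr
  norm_num

lemma Jf_lip' (v w : E) (hv : 1 / 5 ≤ ‖v‖) (hw : 1 / 5 ≤ ‖w‖) :
    ‖Jf v - Jf w‖ ≤ 18 * ‖v - w‖ := by
  refine (Jf_sub_le (m := 44 / 100) v w (by norm_num) (le_trans (by norm_num) hv)
    (le_trans (by norm_num) hw)).trans ?_
  gcongr
  norm_num

lemma kf_of_norm_one (e : E) (he : ‖e‖ = 1) : kf e = -e := by
  simp [kf, he]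

lemma Jf_of_norm_one (e : E) (he : ‖e‖ = 1) : Jf e = -e := by
  simp [Jf, he]

/-- The position of the third particle as a function of the first two. -/
noncomputable def Zf (x y : E) : E := x + Jf ((10000 : ℝ) • x + kf (x - y))

/-- The fixed point map for the second particle. -/
noncomputable def Phi (e x y : E) : E :=
  e - (10000 : ℝ)⁻¹ • (kf (y - x) + kf (y - Zf x y))

lemma norm_xy {e x y : E} (he : ‖e‖ = 1) (hx : ‖x‖ ≤ 1 / 100000000)
    (hy : ‖y - e‖ ≤ 1 / 3000) : 999 / 1000 ≤ ‖x - y‖ ∧ ‖x - y‖ ≤ 1001 / 1000 := by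
  have h1 : ‖x - y - (-e)‖ ≤ 1 / 100000000 + 1 / 3000 := by
    have : x - y - (-e) = x - (y - e) := by abel
    rw [this]
    exact (norm_sub_le _ _).trans (add_le_add hx hy)
  have h2 := norm_sub_norm_le (-e) (x - y)
  have h3 := norm_sub_norm_le (x - y) (-e)
  rw [norm_neg, he] at h2 h3
  rw [norm_sub_rev (-e)] at h2
  constructor <;> linarith

lemma norm_w {e x y : E} (he : ‖e‖ = 1) (hx : ‖x‖ ≤ 1 / 100000000)
    (hy : ‖y - e‖ ≤ 1 / 3000) : ‖(10000 : ℝ) • x + kf (x - y) - e‖ ≤ 12 / 10000 := by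
  have h1 : ‖x - y - (-e)‖ ≤ 1 / 100000000 + 1 / 3000 := by
    have : x - y - (-e) = x - (y - e) := by abel
    rw [this]
    exact (norm_sub_le _ _).trans (add_le_add hx hy)
  have h2 : ‖kf (x - y) - kf (-e)‖ ≤ 3 * ‖x - y - (-e)‖ := by
    apply kf_lip
    · linarith [(norm_xy he hx hy).1]
    · rw [norm_neg, he]; norm_num
  have h3 : kf (-e) = e := by rw [kf_neg, kf_of_norm_one e he, neg_neg]
  rw [h3] at h2
  have h4 : (10000 : ℝ) • x + kf (x - y) - e = (10000 : ℝ) • x + (kf (x - y) - e) := by abel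
  rw [h4]
  refine (norm_add_le _ _).trans ?_
  rw [norm_smul, Real.norm_of_nonneg (by norm_num)]
  linarith

lemma norm_w_ge {e x y : E} (he : ‖e‖ = 1) (hx : ‖x‖ ≤ 1 / 100000000)
    (hy : ‖y - e‖ ≤ 1 / 3000) : 99 / 100 ≤ ‖(10000 : ℝ) • x + kf (x - y)‖ := by
  have h1 := norm_w he hx hy
  have h2 := norm_sub_norm_le e ((10000 : ℝ) • x + kf (x - y))
  rw [norm_sub_rev, he] at h2
  linarith

lemma norm_Zf {e x y : E} (he : ‖e‖ = 1) (hx : ‖x‖ ≤ 1 / 100000000)
    (hy : ‖y - e‖ ≤ 1 / 3000) : ‖Zf x y + e‖ ≤ 1 / 400 := by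
  have h1 := norm_w he hx hy
  have h2 := norm_w_ge he hx hy
  have h3 : ‖Jf ((10000 : ℝ) • x + kf (x - y)) - Jf e‖ ≤
      2 * ‖(10000 : ℝ) • x + kf (x - y) - e‖ := by
    apply Jf_lip
    · linarith
    · rw [he]; norm_num
  rw [Jf_of_norm_one e he] at h3
  have h4 : Zf x y + e = x + (Jf ((10000 : ℝ) • x + kf (x - y)) - (-e)) := by
    rw [Zf]; abel
  rw [h4]
  refine (norm_add_le _ _).trans ?_
  linarith

lemma norm_yz_of {e y z : E} (he : ‖e‖ = 1) 
    (hy : ‖y - e‖ ≤ 1 / 3000) (hz : ‖z + e‖ ≤ 1 / 400) :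
    199 / 100 ≤ ‖y - z‖ ∧ ‖y - z‖ ≤ 201 / 100 := by
  have h1 : ‖y - z - (2 : ℝ) • e‖ ≤ 1 / 3000 + 1 / 400 := by
    have : y - z - (2 : ℝ) • e = (y - e) - (z + e) := by rw [two_smul]; abel
    rw [this]
    exact (norm_sub_le _ _).trans (add_le_add hy hz)
  have h2 := norm_sub_norm_le ((2 : ℝ) • e) (y - z)
  have h3 := norm_sub_norm_le (y - z) ((2 : ℝ) • e)
  have h4 : ‖(2 : ℝ) • e‖ = 2 := by rw [norm_smul, he]; norm_num
  rw [h4] at h2 h3
  rw [norm_sub_rev ((2 : ℝ) • e)] at h2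
  constructor <;> linarith

lemma norm_xz_of {e x z : E} (he : ‖e‖ = 1) (hx : ‖x‖ ≤ 1 / 100000000)
    (hz : ‖z + e‖ ≤ 1 / 400) :
    99 / 100 ≤ ‖x - z‖ ∧ ‖x - z‖ ≤ 101 / 100 := by
  have h1 : ‖x - z - e‖ ≤ 1 / 100000000 + 1 / 400 := by
    have : x - z - e = x - (z + e) := by abel
    rw [this]
    exact (norm_sub_le _ _).trans (add_le_add hx hz)
  have h2 := norm_sub_norm_le e (x - z)
  have h3 := norm_sub_norm_le (x - z) e
  rw [he] at h2 h3
  rw [norm_sub_rev e] at h2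
  constructor <;> linarith

lemma Phi_maps {e x y : E} (he : ‖e‖ = 1) (hx : ‖x‖ ≤ 1 / 100000000)
    (hy : ‖y - e‖ ≤ 1 / 3000) : ‖Phi e x y - e‖ ≤ 1 / 3000 := by
  have hz := norm_Zf he hx hy
  have h1 := (norm_xy he hx hy).1
  have h2 := (norm_yz_of he hy hz).1
  have h3 : ‖kf (y - x)‖ ≤ 11 / 10 := by
    rw [norm_sub_rev] at h1
    have hne : y - x ≠ 0 := norm_pos_iff.mp (by linarith)
    rw [norm_kf _ hne]
    rw [inv_le_comm₀ (by positivity) (by norm_num)]
    nlinarith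
  have h4 : ‖kf (y - Zf x y)‖ ≤ 11 / 10 := by
    have hne : y - Zf x y ≠ 0 := norm_pos_iff.mp (by linarith)
    rw [norm_kf _ hne]
    rw [inv_le_comm₀ (by positivity) (by norm_num)]
    nlinarith
  have h5 : Phi e x y - e = -((10000 : ℝ)⁻¹ • (kf (y - x) + kf (y - Zf x y))) := by
    rw [Phi]; abel
  rw [h5, norm_neg, norm_smul, norm_inv, Real.norm_of_nonneg (by norm_num)]
  have h6 := norm_add_le (kf (y - x)) (kf (y - Zf x y))
  linarith

lemma Zf_lip {e x y y' : E} (he : ‖e‖ = 1) (hx : ‖x‖ ≤ 1 / 100000000)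
    (hy : ‖y - e‖ ≤ 1 / 3000) (hy' : ‖y' - e‖ ≤ 1 / 3000) :
    ‖Zf x y - Zf x y'‖ ≤ 6 * ‖y - y'‖ := by
  have h1 : Zf x y - Zf x y' = Jf ((10000 : ℝ) • x + kf (x - y))
      - Jf ((10000 : ℝ) • x + kf (x - y')) := by
    rw [Zf, Zf]; abel
  have h2 : ‖kf (x - y) - kf (x - y')‖ ≤ 3 * ‖y - y'‖ := by
    have := kf_lip (x - y) (x - y') (by linarith [(norm_xy he hx hy).1])
      (by linarith [(norm_xy he hx hy').1])
    have e1 : x - y - (x - y') = -(y - y') := by abel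
    rwa [e1, norm_neg] at this
  rw [h1]
  refine (Jf_lip _ _ (by linarith [norm_w_ge he hx hy]) (by linarith [norm_w_ge he hx hy'])).trans ?_
  have e2 : (10000 : ℝ) • x + kf (x - y) - ((10000 : ℝ) • x + kf (x - y'))
    = kf (x - y) - kf (x - y') := by abel
  rw [e2]
  linarith

lemma Phi_lip {e x y y' : E} (he : ‖e‖ = 1) (hx : ‖x‖ ≤ 1 / 100000000)
    (hy : ‖y - e‖ ≤ 1 / 3000) (hy' : ‖y' - e‖ ≤ 1 / 3000) :
    ‖Phi e x y - Phi e x y'‖ ≤ 1 / 2 * ‖y - y'‖ := by
  have hz := norm_Zf he hx hy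
  have hz' := norm_Zf he hx hy'
  have hZ := Zf_lip he hx hy hy'
  have h1 : ‖kf (y - x) - kf (y' - x)‖ ≤ 3 * ‖y - y'‖ := by
    have := kf_lip (y - x) (y' - x) (by rw [norm_sub_rev]; linarith [(norm_xy he hx hy).1])
      (by rw [norm_sub_rev]; linarith [(norm_xy he hx hy').1])
    have e1 : y - x - (y' - x) = y - y' := by abel
    rwa [e1] at this
  have h2 : ‖kf (y - Zf x y) - kf (y' - Zf x y')‖ ≤ 3 * (7 * ‖y - y'‖) := by
    refine (kf_lip _ _ (by linarith [(norm_yz_of he hy hz).1])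
      (by linarith [(norm_yz_of he hy' hz').1])).trans ?_
    have e1 : y - Zf x y - (y' - Zf x y') = (y - y') - (Zf x y - Zf x y') := by abel
    rw [e1]
    have := norm_sub_le (y - y') (Zf x y - Zf x y')
    linarith
  have h3 : Phi e x y - Phi e x y' = -((10000 : ℝ)⁻¹ • ((kf (y - x) - kf (y' - x))
      + (kf (y - Zf x y) - kf (y' - Zf x y')))) := by
    rw [Phi, Phi]
    simp only [smul_add, smul_sub]
    abel
  rw [h3, norm_neg, norm_smul, norm_inv, Real.norm_of_nonneg (by norm_num)]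
  have h4 := norm_add_le (kf (y - x) - kf (y' - x)) (kf (y - Zf x y) - kf (y' - Zf x y'))
  have h5 := norm_nonneg (y - y')
  nlinarith

/-- The critical point equations of the contact sheet. -/
structure Crit (e x y z : E) : Prop where
  hx : ‖x‖ ≤ 1 / 100000000
  hy : ‖y - e‖ ≤ 1 / 3000
  hz : ‖z + e‖ ≤ 1 / 400
  eq1 : kf (x - y) + kf (x - z) + (10000 : ℝ) • x = 0
  eq2 : kf (y - x) + kf (y - z) + (10000 : ℝ) • (y - e) = 0

lemma exists_crit [CompleteSpace E] {e x : E} (he : ‖e‖ = 1) (hx : ‖x‖ ≤ 1 / 100000000) :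
    ∃ y z, Crit e x y z := by
  have hmaps : MapsTo (Phi e x) (closedBall e (1 / 3000)) (closedBall e (1 / 3000)) := by
    intro y hy
    rw [mem_closedBall, dist_eq_norm] at hy ⊢
    exact Phi_maps he hx hy
  have hcomplete : IsComplete (closedBall e (1 / 3000 : ℝ)) := isClosed_closedBall.isComplete
  have hcontr : ContractingWith (1 / 2) (hmaps.restrict (Phi e x) _ _) := by
    refine ⟨by rw [← NNReal.coe_lt_coe]; norm_num, ?_⟩
    refine LipschitzWith.of_dist_le_mul ?_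
    intro a b
    have ha := a.2
    have hb := b.2
    rw [mem_closedBall, dist_eq_norm] at ha hb
    have := Phi_lip he hx ha hb
    rw [Subtype.dist_eq, Subtype.dist_eq, dist_eq_norm, dist_eq_norm]
    simpa using this
  obtain ⟨y, hy, hfix, -⟩ := hcontr.exists_fixedPoint' hcomplete hmaps
    (x := e) (mem_closedBall_self (by norm_num)) (edist_ne_top _ _)
  rw [mem_closedBall, dist_eq_norm] at hy
  refine ⟨y, Zf x y, hx, hy, norm_Zf he hx hy, ?_, ?_⟩
  · have h1 : x - Zf x y = - Jf ((10000 : ℝ) • x + kf (x - y)) := by rw [Zf]; abel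
    have hne : (10000 : ℝ) • x + kf (x - y) ≠ 0 :=
      norm_pos_iff.mp (by linarith [norm_w_ge he hx hy])
    rw [h1, kf_neg, kf_Jf _ hne]
    abel
  · have h1 : Phi e x y = y := hfix
    rw [Phi] at h1
    have h2 : y - e = -((10000 : ℝ)⁻¹ • (kf (y - x) + kf (y - Zf x y))) := by
      nth_rewrite 1 [← h1]; abel
    rw [h2, smul_neg, smul_inv_smul₀ (by norm_num)]
    abel

/-- Basic Lipschitz relations between two points of the sheet. -/
lemma Crit.relA {e x y z x' y' z' : E} (he : ‖e‖ = 1) (h : Crit e x y z) (h' : Crit e x' y' z') :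
    10000 * ‖x - x'‖ ≤ 3 * (‖x - x'‖ + ‖y - y'‖) + 3 * (‖x - x'‖ + ‖z - z'‖) := by
  have h1 : ‖kf (x - y) - kf (x' - y')‖ ≤ 3 * (‖x - x'‖ + ‖y - y'‖) := by
    refine (kf_lip _ _ (by linarith [(norm_xy he h.hx h.hy).1])
      (by linarith [(norm_xy he h'.hx h'.hy).1])).trans ?_
    have e1 : x - y - (x' - y') = (x - x') - (y - y') := by abel
    rw [e1]
    have := norm_sub_le (x - x') (y - y')
    linarith
  have h2 : ‖kf (x - z) - kf (x' - z')‖ ≤ 3 * (‖x - x'‖ + ‖z - z'‖) := by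
    refine (kf_lip _ _ (by linarith [(norm_xz_of he h.hx h.hz).1])
      (by linarith [(norm_xz_of he h'.hx h'.hz).1])).trans ?_
    have e1 : x - z - (x' - z') = (x - x') - (z - z') := by abel
    rw [e1]
    have := norm_sub_le (x - x') (z - z')
    linarith
  have h3 : (10000 : ℝ) • (x - x') = -((kf (x - y) - kf (x' - y'))
      + (kf (x - z) - kf (x' - z'))) := by
    have a := h.eq1
    have b := h'.eq1
    have c : (10000 : ℝ) • x = -(kf (x - y) + kf (x - z)) := eq_neg_of_add_eq_zero_right a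
    have d : (10000 : ℝ) • x' = -(kf (x' - y') + kf (x' - z')) := eq_neg_of_add_eq_zero_right b
    rw [smul_sub, c, d]; abel
  have h4 : 10000 * ‖x - x'‖ = ‖(10000 : ℝ) • (x - x')‖ := by
    rw [norm_smul, Real.norm_of_nonneg (by norm_num)]
  rw [h4, h3, norm_neg]
  exact (norm_add_le _ _).trans (add_le_add h1 h2)

lemma Crit.relB {e x y z x' y' z' : E} (he : ‖e‖ = 1) (h : Crit e x y z) (h' : Crit e x' y' z') :
    10000 * ‖y - y'‖ ≤ 3 * (‖x - x'‖ + ‖y - y'‖) + 3 * (‖y - y'‖ + ‖z - z'‖) := by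
  have h1 : ‖kf (y - x) - kf (y' - x')‖ ≤ 3 * (‖x - x'‖ + ‖y - y'‖) := by
    refine (kf_lip _ _ (by rw [norm_sub_rev]; linarith [(norm_xy he h.hx h.hy).1])
      (by rw [norm_sub_rev]; linarith [(norm_xy he h'.hx h'.hy).1])).trans ?_
    have e1 : y - x - (y' - x') = (y - y') - (x - x') := by abel
    rw [e1]
    have := norm_sub_le (y - y') (x - x')
    linarith
  have h2 : ‖kf (y - z) - kf (y' - z')‖ ≤ 3 * (‖y - y'‖ + ‖z - z'‖) := by
    refine (kf_lip _ _ (by linarith [(norm_yz_of he h.hy h.hz).1])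
      (by linarith [(norm_yz_of he h'.hy h'.hz).1])).trans ?_
    have e1 : y - z - (y' - z') = (y - y') - (z - z') := by abel
    rw [e1]
    have := norm_sub_le (y - y') (z - z')
    linarith
  have h3 : (10000 : ℝ) • (y - y') = -((kf (y - x) - kf (y' - x'))
      + (kf (y - z) - kf (y' - z'))) := by
    have a := h.eq2
    have b := h'.eq2
    have c : (10000 : ℝ) • (y - e) = -(kf (y - x) + kf (y - z)) := eq_neg_of_add_eq_zero_right a
    have d : (10000 : ℝ) • (y' - e) = -(kf (y' - x') + kf (y' - z')) :=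
      eq_neg_of_add_eq_zero_right b
    have f : y - y' = (y - e) - (y' - e) := by abel
    rw [f, smul_sub, c, d]; abel
  have h4 : 10000 * ‖y - y'‖ = ‖(10000 : ℝ) • (y - y')‖ := by
    rw [norm_smul, Real.norm_of_nonneg (by norm_num)]
  rw [h4, h3, norm_neg]
  exact (norm_add_le _ _).trans (add_le_add h1 h2)

lemma Crit.relC {e x y z x' y' z' : E} (he : ‖e‖ = 1) (h : Crit e x y z) (h' : Crit e x' y' z') :
    ‖z - z'‖ ≤ ‖x - x'‖ + 2 * (10000 * ‖x - x'‖ + 3 * (‖x - x'‖ + ‖y - y'‖)) := by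
  have key : ∀ {x y z : E}, Crit e x y z → z = x + Jf ((10000 : ℝ) • x + kf (x - y)) := by
    intro x y z h
    have hne : x - z ≠ 0 := norm_pos_iff.mp (by linarith [(norm_xz_of he h.hx h.hz).1])
    have h1 : (10000 : ℝ) • x + kf (x - y) = kf (z - x) := by
      rw [kf_sub_comm z x]
      have a := h.eq1
      have : (10000 : ℝ) • x + kf (x - y) + kf (x - z) = 0 := by rw [← a]; abel
      exact eq_neg_of_add_eq_zero_left this
    have hne' : z - x ≠ 0 := by
      intro h0; apply hne; rw [← neg_sub, h0, neg_zero]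
    rw [h1, Jf_kf _ hne']; abel
  have h1 : ‖kf (x - y) - kf (x' - y')‖ ≤ 3 * (‖x - x'‖ + ‖y - y'‖) := by
    refine (kf_lip _ _ (by linarith [(norm_xy he h.hx h.hy).1])
      (by linarith [(norm_xy he h'.hx h'.hy).1])).trans ?_
    have e1 : x - y - (x' - y') = (x - x') - (y - y') := by abel
    rw [e1]
    have := norm_sub_le (x - x') (y - y')
    linarith
  have h2 := Jf_lip ((10000 : ℝ) • x + kf (x - y)) ((10000 : ℝ) • x' + kf (x' - y'))
    (by linarith [norm_w_ge he h.hx h.hy]) (by linarith [norm_w_ge he h'.hx h'.hy])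
  have h3 : ‖(10000 : ℝ) • x + kf (x - y) - ((10000 : ℝ) • x' + kf (x' - y'))‖ ≤
      10000 * ‖x - x'‖ + 3 * (‖x - x'‖ + ‖y - y'‖) := by
    have e1 : (10000 : ℝ) • x + kf (x - y) - ((10000 : ℝ) • x' + kf (x' - y'))
      = (10000 : ℝ) • (x - x') + (kf (x - y) - kf (x' - y')) := by
      rw [smul_sub]; abel
    rw [e1]
    refine (norm_add_le _ _).trans ?_
    rw [norm_smul, Real.norm_of_nonneg (by norm_num)]
    linarith
  have h4 : z - z' = (x - x') + (Jf ((10000 : ℝ) • x + kf (x - y))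
      - Jf ((10000 : ℝ) • x' + kf (x' - y'))) := by
    nth_rewrite 1 [key h, key h']; abel
  rw [h4]
  refine (norm_add_le _ _).trans ?_
  linarith

lemma Crit.relD {e x y z x' y' z' : E} (he : ‖e‖ = 1) (h : Crit e x y z) (h' : Crit e x' y' z') :
    ‖z - z'‖ ≤ ‖y - y'‖ + 18 * (10000 * ‖y - y'‖ + 3 * (‖x - x'‖ + ‖y - y'‖)) := by
  have key : ∀ {x y z : E}, Crit e x y z →
      (10000 : ℝ) • (y - e) + kf (y - x) = kf (z - y) ∧ z - y ≠ 0 ∧ 
      1 / 5 ≤ ‖(10000 : ℝ) • (y - e) + kf (y - x)‖ := by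
    intro x y z h
    have hyz := norm_yz_of he h.hy h.hz
    have hne : y - z ≠ 0 := norm_pos_iff.mp (by linarith)
    have h1 : (10000 : ℝ) • (y - e) + kf (y - x) = kf (z - y) := by
      rw [kf_sub_comm z y]
      have a := h.eq2
      have : (10000 : ℝ) • (y - e) + kf (y - x) + kf (y - z) = 0 := by rw [← a]; abel
      exact eq_neg_of_add_eq_zero_left this
    have hne' : z - y ≠ 0 := by
      intro h0; apply hne; rw [← neg_sub, h0, neg_zero]
    refine ⟨h1, hne', ?_⟩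
    rw [h1, norm_kf _ hne', norm_sub_rev, le_inv_comm₀ (by norm_num) (by positivity)]
    nlinarith [hyz.1, hyz.2]
  have h1 : ‖kf (y - x) - kf (y' - x')‖ ≤ 3 * (‖x - x'‖ + ‖y - y'‖) := by
    refine (kf_lip _ _ (by rw [norm_sub_rev]; linarith [(norm_xy he h.hx h.hy).1])
      (by rw [norm_sub_rev]; linarith [(norm_xy he h'.hx h'.hy).1])).trans ?_
    have e1 : y - x - (y' - x') = (y - y') - (x - x') := by abel
    rw [e1]
    have := norm_sub_le (y - y') (x - x')
    linarith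
  obtain ⟨a1, a2, a3⟩ := key h
  obtain ⟨b1, b2, b3⟩ := key h'
  have h2 := Jf_lip' ((10000 : ℝ) • (y - e) + kf (y - x)) ((10000 : ℝ) • (y' - e) + kf (y' - x'))
    a3 b3
  have h3 : ‖(10000 : ℝ) • (y - e) + kf (y - x) - ((10000 : ℝ) • (y' - e) + kf (y' - x'))‖ ≤
      10000 * ‖y - y'‖ + 3 * (‖x - x'‖ + ‖y - y'‖) := by
    have e1 : (10000 : ℝ) • (y - e) + kf (y - x) - ((10000 : ℝ) • (y' - e) + kf (y' - x'))
      = (10000 : ℝ) • (y - y') + (kf (y - x) - kf (y' - x')) := by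
      simp only [smul_sub]; abel
    rw [e1]
    refine (norm_add_le _ _).trans ?_
    rw [norm_smul, Real.norm_of_nonneg (by norm_num)]
    linarith
  have h4 : z - z' = (y - y') + (Jf ((10000 : ℝ) • (y - e) + kf (y - x))
      - Jf ((10000 : ℝ) • (y' - e) + kf (y' - x'))) := by
    rw [a1, b1, Jf_kf _ a2, Jf_kf _ b2]; abel
  rw [h4]
  refine (norm_add_le _ _).trans ?_
  linarith

/-- `y` is a Lipschitz function of `x`. -/
lemma Crit.y_le {e x y z x' y' z' : E} (he : ‖e‖ = 1) (h : Crit e x y z)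
    (h' : Crit e x' y' z') : ‖y - y'‖ ≤ 10 * ‖x - x'‖ := by
  have A := h.relA he h'
  have B := h.relB he h'
  have C := h.relC he h'
  have := norm_nonneg (x - x')
  have := norm_nonneg (y - y')
  have := norm_nonneg (z - z')
  linarith

/-- `z` is a Lipschitz function of `x`. -/
lemma Crit.z_le {e x y z x' y' z' : E} (he : ‖e‖ = 1) (h : Crit e x y z)
    (h' : Crit e x' y' z') : ‖z - z'‖ ≤ 30000 * ‖x - x'‖ := by
  have A := h.relA he h'
  have B := h.relB he h'
  have C := h.relC he h'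
  have := norm_nonneg (x - x')
  have := norm_nonneg (y - y')
  have := norm_nonneg (z - z')
  linarith

/-- `x` is a Lipschitz function of `z`. -/
lemma Crit.x_le_z {e x y z x' y' z' : E} (he : ‖e‖ = 1) (h : Crit e x y z)
    (h' : Crit e x' y' z') : ‖x - x'‖ ≤ ‖z - z'‖ := by
  have A := h.relA he h'
  have B := h.relB he h'
  have := norm_nonneg (x - x')
  have := norm_nonneg (y - y')
  have := norm_nonneg (z - z')
  linarith

/-- `x` is a Lipschitz function of `y`. -/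
lemma Crit.x_le_y {e x y z x' y' z' : E} (he : ‖e‖ = 1) (h : Crit e x y z)
    (h' : Crit e x' y' z') : ‖x - x'‖ ≤ 1000 * ‖y - y'‖ := by
  have A := h.relA he h'
  have D := h.relD he h'
  have := norm_nonneg (x - x')
  have := norm_nonneg (y - y')
  have := norm_nonneg (z - z')
  linarith

end Vale.Agent.P121
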